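import Mathlib

namespace Vale.Agent.P345
open MvPolynomial Function

/-- polynomial functions on natural-number vectors -/
def PolyFn {σ : Type} (f : (σ → ℕ) → ℤ) : Prop :=
  ∃ P : MvPolynomial σ ℤ, ∀ v : σ → ℕ, eval (fun i => (v i : ℤ)) P = f v

namespace PolyFn
variable {σ σ' : Type}

theorem const (c : ℤ) : PolyFn (fun _ : σ → ℕ => c) := ⟨C c, fun _ => by simp⟩
theorem proj (i : σ) : PolyFn (fun v : σ → ℕ => (v i : ℤ)) := ⟨X i, fun _ => by simp⟩
theorem add {f g : (σ → ℕ) → ℤ} (hf : PolyFn f) (hg : PolyFn g) : PolyFn (fun v => f v + g v) := by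
  obtain ⟨P, hP⟩ := hf; obtain ⟨Q, hQ⟩ := hg
  exact ⟨P + Q, fun v => by simp [hP, hQ]⟩
theorem sub {f g : (σ → ℕ) → ℤ} (hf : PolyFn f) (hg : PolyFn g) : PolyFn (fun v => f v - g v) := by
  obtain ⟨P, hP⟩ := hf; obtain ⟨Q, hQ⟩ := hg
  exact ⟨P - Q, fun v => by simp [hP, hQ]⟩
theorem mul {f g : (σ → ℕ) → ℤ} (hf : PolyFn f) (hg : PolyFn g) : PolyFn (fun v => f v * g v) := by
  obtain ⟨P, hP⟩ := hf; obtain ⟨Q, hQ⟩ := hg
  exact ⟨P * Q, fun v => by simp [hP, hQ]⟩
theorem sum {J : Type} (s : Finset J) {f : J → (σ → ℕ) → ℤ} (hf : ∀ j, PolyFn (f j)) :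
    PolyFn (fun v => ∑ j ∈ s, f j v) := by
  choose P hP using hf
  exact ⟨∑ j ∈ s, P j, fun v => by simp [hP]⟩
theorem comap {f : (σ → ℕ) → ℤ} (hf : PolyFn f) (g : σ → σ') :
    PolyFn (fun v : σ' → ℕ => f (fun i => v (g i))) := by
  obtain ⟨P, hP⟩ := hf
  exact ⟨rename g P, fun v => by rw [eval_rename]; exact hP _⟩
end PolyFn

/-- single-fold Diophantine relations on vectors -/
def SF0 {σ : Type} (R : (σ → ℕ) → Prop) : Prop :=
  ∃ (τ : Type) (_ : Finite τ) (F : (σ → ℕ) → (τ → ℕ) → ℤ),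
    PolyFn (fun v : σ ⊕ τ → ℕ => F (fun i => v (.inl i)) (fun j => v (.inr j))) ∧
    ∀ a, (R a ↔ ∃ w, F a w = 0) ∧ ∀ w w', F a w = 0 → F a w' = 0 → w = w'

namespace SF0
variable {σ σ' : Type}

theorem congr {R S : (σ → ℕ) → Prop} (h : SF0 R) (e : ∀ v, R v ↔ S v) : SF0 S := by
  rwa [show S = R from funext fun v => propext (e v).symm]

theorem poly {f : (σ → ℕ) → ℤ} (hf : PolyFn f) : SF0 (fun v => f v = 0) :=
  ⟨Empty, inferInstance, fun a _ => f a, hf.comap Sum.inl, fun _ =>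
    ⟨⟨fun h => ⟨fun e => e.elim, h⟩, fun ⟨_, h⟩ => h⟩, fun _ _ _ _ => funext fun e => e.elim⟩⟩

theorem comap {R : (σ → ℕ) → Prop} (h : SF0 R) (g : σ → σ') :
    SF0 (fun v : σ' → ℕ => R (fun i => v (g i))) := by
  obtain ⟨τ, _, F, hF, h⟩ := h
  exact ⟨τ, inferInstance, fun a w => F (fun i => a (g i)) w, hF.comap (Sum.map g id),
    fun _ => h _⟩

theorem and {R S : (σ → ℕ) → Prop} (hR : SF0 R) (hS : SF0 S) : SF0 (fun v => R v ∧ S v) := by
  obtain ⟨τ, _, F, hF, h⟩ := hR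
  obtain ⟨τ', _, G, hG, h'⟩ := hS
  have key : ∀ x y : ℤ, x * x + y * y = 0 ↔ x = 0 ∧ y = 0 := fun x y => mul_self_add_mul_self_eq_zero
  refine ⟨τ ⊕ τ', inferInstance, fun a w => F a (fun j => w (.inl j)) * F a (fun j => w (.inl j)) +
    G a (fun j => w (.inr j)) * G a (fun j => w (.inr j)), ?_, fun a => ⟨?_, ?_⟩⟩
  · have h1 := hF.comap (Sum.map id (Sum.inl : τ → τ ⊕ τ'))
    have h2 := hG.comap (Sum.map id (Sum.inr : τ' → τ ⊕ τ'))
    exact (h1.mul h1).add (h2.mul h2)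
  · simp only [key, (h a).1, (h' a).1]
    exact ⟨fun ⟨⟨w, hw⟩, w', hw'⟩ => ⟨Sum.elim w w', hw, hw'⟩, fun ⟨w, hw, hw'⟩ => ⟨⟨_, hw⟩, _, hw'⟩⟩
  · simp only [key]
    rintro w w' ⟨h1, h2⟩ ⟨h3, h4⟩
    have e1 := (h a).2 _ _ h1 h3
    have e2 := (h' a).2 _ _ h2 h4
    funext j; cases j with
    | inl j => exact congrFun e1 j
    | inr j => exact congrFun e2 j

theorem or {R S : (σ → ℕ) → Prop} (hR : SF0 R) (hS : SF0 S) (hd : ∀ v, R v → S v → False) :
    SF0 (fun v => R v ∨ S v) := by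
  obtain ⟨τ, _, F, hF, h⟩ := hR
  obtain ⟨τ', _, G, hG, h'⟩ := hS
  have := Fintype.ofFinite τ
  have := Fintype.ofFinite τ'
  have key : ∀ {ρ : Type} [Fintype ρ] (x : ℤ) (w : ρ → ℕ), x * x + ∑ j, (w j : ℤ) = 0 ↔ x = 0 ∧ w = 0 := by
    intro ρ _ x w
    have h1 : 0 ≤ ∑ j, (w j : ℤ) := by positivity
    constructor
    · intro h
      have h2 : ∑ j, (w j : ℤ) = 0 := by nlinarith [mul_self_nonneg x]
      refine ⟨by nlinarith [mul_self_nonneg x], funext fun j => ?_⟩
      have := (Finset.sum_eq_zero_iff_of_nonneg (fun j _ => by positivity)).1 h2 j (Finset.mem_univ _)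
      simpa using this
    · rintro ⟨rfl, rfl⟩; simp
  refine ⟨τ ⊕ τ', inferInstance, fun a w =>
    (F a (fun j => w (.inl j)) * F a (fun j => w (.inl j)) + ∑ j, (w (.inr j) : ℤ)) *
    (G a (fun j => w (.inr j)) * G a (fun j => w (.inr j)) + ∑ j, (w (.inl j) : ℤ)), ?_, fun a => ⟨?_, ?_⟩⟩
  · have h1 := hF.comap (Sum.map id (Sum.inl : τ → τ ⊕ τ'))
    have h2 := hG.comap (Sum.map id (Sum.inr : τ' → τ ⊕ τ'))
    exact ((h1.mul h1).add (PolyFn.sum _ fun j => PolyFn.proj (Sum.inr (Sum.inr j)))).mul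
      ((h2.mul h2).add (PolyFn.sum _ fun j => PolyFn.proj (Sum.inr (Sum.inl j))))
  · simp only [mul_eq_zero (M₀ := ℤ), key _ (fun j => _), (h a).1, (h' a).1]
    constructor
    · rintro (⟨w, hw⟩ | ⟨w, hw⟩)
      · exact ⟨Sum.elim w 0, .inl ⟨hw, rfl⟩⟩
      · exact ⟨Sum.elim 0 w, .inr ⟨hw, rfl⟩⟩
    · rintro ⟨w, ⟨h1, -⟩ | ⟨h1, -⟩⟩
      · exact .inl ⟨_, h1⟩
      · exact .inr ⟨_, h1⟩
  · simp only [mul_eq_zero (M₀ := ℤ), key _ (fun j => _)]
    rintro w w' (⟨h1, h2⟩ | ⟨h1, h2⟩) (⟨h3, h4⟩ | ⟨h3, h4⟩)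
    · have e1 := (h a).2 _ _ h1 h3
      funext j; cases j with
      | inl j => exact congrFun e1 j
      | inr j => exact (congrFun h2 j).trans (congrFun h4 j).symm
    · exact (hd a ((h a).1.2 ⟨_, h1⟩) ((h' a).1.2 ⟨_, h3⟩)).elim
    · exact (hd a ((h a).1.2 ⟨_, h3⟩) ((h' a).1.2 ⟨_, h1⟩)).elim
    · have e1 := (h' a).2 _ _ h1 h3
      funext j; cases j with
      | inl j => exact (congrFun h2 j).trans (congrFun h4 j).symm
      | inr j => exact congrFun e1 j

theorem ex {ρ : Type} [Finite ρ] {R : (σ → ℕ) → (ρ → ℕ) → Prop}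
    (hR : SF0 (fun v : σ ⊕ ρ → ℕ => R (fun i => v (.inl i)) (fun j => v (.inr j))))
    (hu : ∀ a u u', R a u → R a u' → u = u') : SF0 (fun a => ∃ u, R a u) := by
  obtain ⟨τ, _, F, hF, h⟩ := hR
  refine ⟨ρ ⊕ τ, inferInstance, fun a w => F (Sum.elim a fun j => w (.inl j)) (fun j => w (.inr j)),
    ?_, fun a => ⟨?_, ?_⟩⟩
  · have := hF.comap (Equiv.sumAssoc σ ρ τ)
    convert this using 3 with v
    · funext i; cases i <;> rfl
    · rfl
  · constructor
    · rintro ⟨u, hu⟩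
      obtain ⟨w, hw⟩ := (h (Sum.elim a u)).1.1 hu
      exact ⟨Sum.elim u w, hw⟩
    · rintro ⟨w, hw⟩
      exact ⟨_, (h _).1.2 ⟨_, hw⟩⟩
  · intro w w' h1 h2
    have e : (fun j => w (.inl j)) = fun j => w' (.inl j) :=
      hu a _ _ ((h _).1.2 ⟨_, h1⟩) ((h _).1.2 ⟨_, h2⟩)
    beta_reduce at h1 h2
    rw [e] at h1
    have e2 := (h _).2 _ _ h1 h2
    funext j; cases j with
    | inl j => exact congrFun e j
    | inr j => exact congrFun e2 j

theorem tru : SF0 (fun _ : σ → ℕ => True) := (poly (PolyFn.const 0)).congr fun _ => by simp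

theorem all {J : Type} [Finite J] {R : J → (σ → ℕ) → Prop} (h : ∀ j, SF0 (R j)) :
    SF0 (fun v => ∀ j, R j v) := by
  classical
  have := Fintype.ofFinite J
  suffices H : ∀ s : Finset J, SF0 (fun v => ∀ j ∈ s, R j v) from (H Finset.univ).congr fun v => by simp
  intro s
  induction s using Finset.induction_on with
  | empty => exact tru.congr fun v => by simp
  | insert a s _ ih => exact ((h a).and ih).congr fun v => by simp

theorem eqv (i j : σ) : SF0 (fun v : σ → ℕ => v i = v j) :=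
  (poly ((PolyFn.proj i).sub (PolyFn.proj j))).congr fun v => by simp [sub_eq_zero]

theorem eqc (i : σ) (c : ℕ) : SF0 (fun v : σ → ℕ => v i = c) :=
  (poly ((PolyFn.proj i).sub (PolyFn.const c))).congr fun v => by simp [sub_eq_zero]
end SF0

/-- types coded injectively by finite vectors of naturals with single-fold range -/
class Cd (X : Type) where
  ι : Type
  fin : Finite ι
  enc : X → ι → ℕ
  inj : Injective enc
  rng : SF0 (fun v => ∃ x, enc x = v)

attribute [instance] Cd.fin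
open Cd

/-- single-fold relations on coded types -/
@[fun_prop] def SF {X : Type} [Cd X] (R : X → Prop) : Prop := SF0 (fun v => ∃ x, enc x = v ∧ R x)

instance : Cd ℕ where
  ι := Unit
  fin := inferInstance
  enc n _ := n
  inj _ _ h := congrFun h ()
  rng := SF0.tru.congr fun v => by simpa using ⟨v (), rfl⟩

instance {X Y : Type} [Cd X] [Cd Y] : Cd (X × Y) where
  ι := ι X ⊕ ι Y
  fin := inferInstance
  enc p := Sum.elim (enc p.1) (enc p.2)
  inj p q h := Prod.ext (inj (funext fun i => congrFun h (.inl i))) (inj (funext fun i => congrFun h (.inr i)))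
  rng := ((rng.comap Sum.inl).and (rng.comap Sum.inr)).congr fun v => by
    constructor
    · rintro ⟨⟨x, hx⟩, y, hy⟩
      refine ⟨(x, y), ?_⟩
      funext i; cases i with
      | inl i => exact congrFun hx i
      | inr i => exact congrFun hy i
    · rintro ⟨⟨x, y⟩, rfl⟩
      exact ⟨⟨x, rfl⟩, y, rfl⟩

instance {J X : Type} [Finite J] [Cd X] : Cd (J → X) where
  ι := J × ι X
  fin := inferInstance
  enc f p := enc (f p.1) p.2
  inj f g h := funext fun j => inj (funext fun i => congrFun h (j, i))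
  rng := (SF0.all fun j => rng.comap (Prod.mk j)).congr fun v => by
    constructor
    · intro h
      choose f hf using h
      exact ⟨f, funext fun p => congrFun (hf p.1) p.2⟩
    · rintro ⟨f, rfl⟩ j
      exact ⟨f j, rfl⟩

/-- functions with single-fold graph -/
@[fun_prop] def Fn {X Y : Type} [Cd X] [Cd Y] (f : X → Y) : Prop := SF (fun p : X × Y => p.2 = f p.1)

section
variable {X Y Z : Type} [Cd X] [Cd Y] [Cd Z]

theorem SF.congr {R S : X → Prop} (h : SF R) (e : ∀ v, R v ↔ S v) : SF S := by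
  rwa [show S = R from funext fun v => propext (e v).symm]

theorem SF.of0 {R : X → Prop} {Q : (ι X → ℕ) → Prop} (hQ : SF0 Q) (h : ∀ x, Q (enc x) ↔ R x) : SF R :=
  (SF0.and rng hQ).congr fun v => by
    constructor
    · rintro ⟨⟨x, rfl⟩, h2⟩; exact ⟨x, rfl, (h x).1 h2⟩
    · rintro ⟨x, rfl, h2⟩; exact ⟨⟨x, rfl⟩, (h x).2 h2⟩

theorem SF.iff0 {R : X → Prop} (x : X) : (∃ y, enc y = enc x ∧ R y) ↔ R x :=
  ⟨fun ⟨_, h1, h2⟩ => inj h1 ▸ h2, fun h => ⟨x, rfl, h⟩⟩

@[fun_prop] theorem SF.and {R S : X → Prop} (hR : SF R) (hS : SF S) : SF (fun x => R x ∧ S x) :=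
  SF.of0 (SF0.and hR hS) fun x => by rw [SF.iff0, SF.iff0]

theorem SF.or {R S : X → Prop} (hR : SF R) (hS : SF S) (hd : ∀ x, R x → S x → False) :
    SF (fun x => R x ∨ S x) :=
  SF.of0 (SF0.or hR hS (by rintro _ ⟨x, rfl, h1⟩ ⟨y, h2, h3⟩; exact hd x h1 (inj h2 ▸ h3)))
    fun x => by rw [SF.iff0, SF.iff0]

theorem SF.all {J : Type} [Finite J] {R : J → X → Prop} (h : ∀ j, SF (R j)) :
    SF (fun x => ∀ j, R j x) :=
  SF.of0 (SF0.all h) fun x => by simp only [SF.iff0]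

@[fun_prop] theorem SF.const (p : Prop) : SF (fun _ : X => p) := by
  by_cases hp : p
  · exact SF.of0 SF0.tru fun x => by simp [hp]
  · exact SF.of0 (SF0.poly (PolyFn.const 1)) fun x => by simp [hp]

theorem SF.ex {R : X → Y → Prop} (hR : SF (fun p : X × Y => R p.1 p.2))
    (hu : ∀ x y y', R x y → R x y' → y = y') : SF (fun x => ∃ y, R x y) := by
  refine SF.of0 (SF0.ex (R := fun a u => ∃ p : X × Y, enc p = Sum.elim a u ∧ R p.1 p.2) ?_ ?_) ?_
  · refine SF0.congr hR fun v => ?_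
    rw [show (Sum.elim (fun i => v (.inl i)) fun j => v (.inr j)) = v from
      funext fun i => by cases i <;> rfl]
  · rintro a u u' ⟨p, h1, h2⟩ ⟨q, h3, h4⟩
    have e1 : p.1 = q.1 := inj (funext fun i => (congrFun h1 (.inl i)).trans (congrFun h3 (.inl i)).symm)
    have e2 := hu _ _ _ h2 (e1 ▸ h4)
    funext j
    exact (congrFun h1 (.inr j)).symm.trans ((congrArg (enc · j) e2).trans (congrFun h3 (.inr j)))
  · intro x
    constructor
    · rintro ⟨u, p, h1, h2⟩
      have : p.1 = x := inj (funext fun i => congrFun h1 (.inl i))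
      exact ⟨p.2, this ▸ h2⟩
    · rintro ⟨y, h⟩
      exact ⟨enc y, (x, y), rfl, h⟩

/-- pull back along a map that only copies coordinates -/
theorem SF.copy {R : Y → Prop} (hR : SF R) (f : X → Y) (g : ι Y → ι X)
    (h : ∀ x i, enc (f x) i = enc x (g i)) : SF (fun x => R (f x)) :=
  SF.of0 (SF0.comap hR g) fun x => by
    rw [show (fun i => enc x (g i)) = enc (f x) from funext fun i => (h x i).symm, SF.iff0]

theorem SF.eq' : SF (fun p : X × X => p.2 = p.1) :=
  SF.of0 (SF0.all fun i : ι X => SF0.eqv (Sum.inr i) (Sum.inl i)) fun _ =>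
    ⟨fun h => inj (funext h), fun h i => congrArg (enc · i) h⟩

theorem Fn.copy (f : X → Y) (g : ι Y → ι X) (h : ∀ x i, enc (f x) i = enc x (g i)) : Fn f :=
  SF.copy SF.eq' (fun p : X × Y => (f p.1, p.2)) (Sum.map g id) fun x i => by
    cases i with
    | inl i => exact h _ i
    | inr i => rfl

@[fun_prop] theorem SF.comp {R : Y → Prop} {f : X → Y} (hR : SF R) (hf : Fn f) :
    SF (fun x => R (f x)) :=
  (SF.ex (R := fun x y => y = f x ∧ R y) (SF.and hf (hR.copy Prod.snd Sum.inr fun _ _ => rfl))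
    (fun _ _ _ h h' => h.1.trans h'.1.symm)).congr fun x => by simp

@[fun_prop] theorem Fn.id' : Fn (fun x : X => x) := SF.eq'

@[fun_prop] theorem Fn.const (c : Y) : Fn (fun _ : X => c) :=
  SF.of0 (SF0.all fun i : ι Y => SF0.eqc (Sum.inr i) (enc c i)) fun _ =>
    ⟨fun h => inj (funext h), fun h i => congrArg (enc · i) h⟩

theorem Fn.fst' : Fn (Prod.fst : X × Y → X) := Fn.copy _ Sum.inl fun _ _ => rfl
theorem Fn.snd' : Fn (Prod.snd : X × Y → Y) := Fn.copy _ Sum.inr fun _ _ => rfl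

@[fun_prop] theorem Fn.prodMk {f : X → Y} {g : X → Z} (hf : Fn f) (hg : Fn g) :
    Fn (fun x => (f x, g x)) :=
  (SF.and (SF.copy hf (fun p : X × (Y × Z) => (p.1, p.2.1)) (Sum.map id Sum.inl)
      fun _ i => by cases i <;> rfl)
    (SF.copy hg (fun p : X × (Y × Z) => (p.1, p.2.2)) (Sum.map id Sum.inr)
      fun _ i => by cases i <;> rfl)).congr fun p => by simp [Prod.ext_iff]

@[fun_prop] theorem Fn.comp {f : Y → Z} {g : X → Y} (hf : Fn f) (hg : Fn g) : Fn (fun x => f (g x)) := by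
  have h1 : Fn (fun p : X × Z => g p.1) :=
    SF.copy hg (fun p : (X × Z) × Y => (p.1.1, p.2)) (Sum.map Sum.inl id) fun _ i => by cases i <;> rfl
  exact SF.comp hf (Fn.prodMk h1 Fn.snd')

@[fun_prop] theorem Fn.fst {f : X → Y × Z} (hf : Fn f) : Fn (fun x => (f x).1) := Fn.fst'.comp hf
@[fun_prop] theorem Fn.snd {f : X → Y × Z} (hf : Fn f) : Fn (fun x => (f x).2) := Fn.snd'.comp hf

@[fun_prop] theorem Fn.apply {J : Type} [Finite J] (j : J) : Fn (fun f : J → X => f j) :=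
  Fn.copy _ (Prod.mk j) fun _ _ => rfl

@[fun_prop] theorem Fn.pi {J : Type} [Finite J] {f : X → J → Y} (h : ∀ j, Fn (fun x => f x j)) :
    Fn f :=
  (SF.all fun j => SF.copy (h j) (fun p : X × (J → Y) => (p.1, p.2 j)) (Sum.map id (Prod.mk j))
    fun _ i => by cases i <;> rfl).congr fun p => _root_.funext_iff.symm

@[fun_prop] theorem SF.eq {f g : X → Y} (hf : Fn f) (hg : Fn g) : SF (fun x => f x = g x) :=
  SF.comp SF.eq' (Fn.prodMk hg hf)

theorem Fn.of_graph {f : X → Y} {R : X → Y → Prop} (hR : SF (fun p : X × Y => R p.1 p.2))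
    (h : ∀ x y, R x y ↔ y = f x) : Fn f := hR.congr fun p => h p.1 p.2

theorem Fn.congr {f g : X → Y} (hf : Fn f) (h : ∀ x, f x = g x) : Fn g := by
  rwa [show g = f from funext fun x => (h x).symm]

/-! natural numbers -/

@[fun_prop] theorem Fn.add {f g : X → ℕ} (hf : Fn f) (hg : Fn g) : Fn (fun x => f x + g x) := by
  have : Fn (fun p : ℕ × ℕ => p.1 + p.2) :=
    SF.of0 (SF0.poly (((PolyFn.proj (.inl (.inl ()))).add (PolyFn.proj (.inl (.inr ())))).sub
      (PolyFn.proj (.inr ())))) fun p => by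
      show ((p.1.1 : ℤ) + p.1.2 - p.2 = 0) ↔ p.2 = p.1.1 + p.1.2
      omega
  exact this.comp (hf.prodMk hg)

@[fun_prop] theorem Fn.mul {f g : X → ℕ} (hf : Fn f) (hg : Fn g) : Fn (fun x => f x * g x) := by
  have : Fn (fun p : ℕ × ℕ => p.1 * p.2) :=
    SF.of0 (SF0.poly (((PolyFn.proj (.inl (.inl ()))).mul (PolyFn.proj (.inl (.inr ())))).sub
      (PolyFn.proj (.inr ())))) fun p => by
      show ((p.1.1 : ℤ) * p.1.2 - p.2 = 0) ↔ _
      rw [sub_eq_zero, eq_comm]; norm_cast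
  exact this.comp (hf.prodMk hg)

@[fun_prop] theorem SF.le {f g : X → ℕ} (hf : Fn f) (hg : Fn g) : SF (fun x => f x ≤ g x) :=
  (SF.ex (R := fun x c => f x + c = g x) (by fun_prop) (fun _ _ _ _ _ => by omega)).congr
    fun x => ⟨fun ⟨_, h⟩ => by omega, fun h => ⟨g x - f x, by omega⟩⟩

@[fun_prop] theorem SF.lt {f g : X → ℕ} (hf : Fn f) (hg : Fn g) : SF (fun x => f x < g x) :=
  (SF.le (f := fun x => f x + 1) (by fun_prop) hg)

@[fun_prop] theorem SF.ne {f g : X → ℕ} (hf : Fn f) (hg : Fn g) : SF (fun x => f x ≠ g x) :=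
  (SF.or (SF.lt hf hg) (SF.lt hg hf) fun _ _ _ => by omega).congr fun x => by omega

@[fun_prop] theorem Fn.sub {f g : X → ℕ} (hf : Fn f) (hg : Fn g) : Fn (fun x => f x - g x) :=
  Fn.of_graph (R := fun x y => (f x < g x ∧ y = 0) ∨ (y + g x = f x))
    (SF.or (by fun_prop) (by fun_prop) fun _ _ _ => by omega) fun _ _ => by omega

@[fun_prop] theorem Fn.max {f g : X → ℕ} (hf : Fn f) (hg : Fn g) : Fn (fun x => max (f x) (g x)) :=
  Fn.congr (f := fun x => f x + (g x - f x)) (by fun_prop) fun _ => by omega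

@[fun_prop] theorem Fn.div {f g : X → ℕ} (hf : Fn f) (hg : Fn g) : Fn (fun x => f x / g x) :=
  Fn.of_graph (R := fun x y => (g x = 0 ∧ y = 0) ∨ (y * g x ≤ f x ∧ f x < (y + 1) * g x))
    (SF.or (by fun_prop) (by fun_prop) fun _ h h' => by simp [h.1] at h') fun x y => by
    rcases Nat.eq_zero_or_pos (g x) with h | h
    · simp [h]
    · rw [eq_comm (a := y) (b := f x / g x), Nat.div_eq_iff h]
      constructor
      · rintro (h1 | h1)
        · omega
        · constructor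
          · exact h1.1
          · have := h1.2; rw [add_mul] at this; omega
      · rintro ⟨h1, h2⟩
        exact .inr ⟨h1, by rw [add_mul]; omega⟩

@[fun_prop] theorem Fn.mod {f g : X → ℕ} (hf : Fn f) (hg : Fn g) : Fn (fun x => f x % g x) :=
  Fn.congr (f := fun x => f x - g x * (f x / g x)) (by fun_prop) fun _ => (Nat.mod_def _ _).symm

@[fun_prop] theorem Fn.powc {f : X → ℕ} (hf : Fn f) (k : ℕ) : Fn (fun x => f x ^ k) := by
  induction k with
  | zero => simpa using Fn.const 1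
  | succ k ih => simpa [pow_succ] using ih.mul hf

theorem Fn.sum {J : Type} (s : Finset J) {f : J → X → ℕ} (h : ∀ j ∈ s, Fn (f j)) :
    Fn (fun x => ∑ j ∈ s, f j x) := by
  classical
  induction s using Finset.induction_on with
  | empty => simpa using Fn.const 0
  | insert a s ha ih =>
    simp only [Finset.sum_insert ha]
    exact (h a (by simp)).add (ih fun j hj => h j (by simp [hj]))

theorem Fn.prod {J : Type} (s : Finset J) {f : J → X → ℕ} (h : ∀ j ∈ s, Fn (f j)) :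
    Fn (fun x => ∏ j ∈ s, f j x) := by
  classical
  induction s using Finset.induction_on with
  | empty => simpa using Fn.const 1
  | insert a s ha ih =>
    simp only [Finset.prod_insert ha]
    exact (h a (by simp)).mul (ih fun j hj => h j (by simp [hj]))

@[fun_prop] theorem SF.coprime {f g : X → ℕ} (hf : Fn f) (hg : Fn g) :
    SF (fun x => Nat.Coprime (f x) (g x)) := by
  refine (SF.or (R := fun x => g x = 0 ∧ f x = 1)
    (S := fun x => ∃ u, u < g x ∧ (f x * u) % g x = 1 % g x) (by fun_prop)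
    (SF.ex (by fun_prop) ?_) ?_).congr ?_
  · rintro x u u' ⟨h1, h2⟩ ⟨h3, h4⟩
    have h5 : Nat.Coprime (f x) (g x) := Nat.coprime_of_mul_modEq_one u h2
    have h6 : f x * u ≡ f x * u' [MOD g x] := h2.trans h4.symm
    exact Nat.ModEq.eq_of_lt_of_lt (Nat.ModEq.cancel_left_of_coprime h5.symm h6) h1 h3
  · rintro x ⟨h, -⟩ ⟨u, h', -⟩; omega
  · intro x
    constructor
    · rintro (⟨h1, h2⟩ | ⟨u, -, h⟩)
      · simp [h1, h2]
      · exact Nat.coprime_of_mul_modEq_one u h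
    · intro h
      rcases Nat.eq_zero_or_pos (g x) with h0 | h0
      · left; simpa [h0] using h
      · right
        obtain ⟨u, hu⟩ := Nat.exists_mul_mod_eq_of_coprime 1 h h0.ne'
        exact ⟨u % g x, Nat.mod_lt _ h0, by rw [Nat.mul_mod_mod]; exact hu.2⟩

end

end Vale.Agent.P345
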