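import Vale.Agent.P345.Calc

namespace Vale.Agent.P345
open Function Cd

section
variable {X Y Z : Type}

/-- coding through an injection with single-fold range -/
@[reducible] def Cd.ofInj [Cd X] (e : Y → X) (he : Injective e) (hr : SF (fun x => ∃ y, e y = x)) :
    Cd Y where
  ι := ι X
  fin := inferInstance
  enc y := enc (e y)
  inj := inj.comp he
  rng := SF0.congr hr fun v => by
    constructor
    · rintro ⟨_, h, y, rfl⟩; exact ⟨y, h⟩
    · rintro ⟨y, h⟩; exact ⟨_, h, y, rfl⟩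

instance : Cd ℤ := Cd.ofInj (fun z : ℤ => (z.toNat, (-z).toNat))
  (fun a b h => by simp only [Prod.mk.injEq] at h; omega)
  (SF.congr (R := fun p : ℕ × ℕ => p.1 * p.2 = 0) (by fun_prop) fun p => by
    rw [mul_eq_zero]
    constructor
    · intro h
      exact ⟨(p.1 : ℤ) - p.2, Prod.ext (by simp only; omega) (by simp only; omega)⟩
    · rintro ⟨z, rfl⟩; simp only; omega)

variable [Cd X] [Cd Y] [Cd Z]

@[fun_prop] theorem Fn.toNat {f : X → ℤ} (hf : Fn f) : Fn (fun x => (f x).toNat) :=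
  (Fn.copy Int.toNat Sum.inl fun _ _ => rfl).comp hf

theorem Fn.negToNat {f : X → ℤ} (hf : Fn f) : Fn (fun x => (-f x).toNat) :=
  (Fn.copy (fun z : ℤ => (-z).toNat) Sum.inr fun _ _ => rfl).comp hf

@[fun_prop] theorem Fn.zneg {f : X → ℤ} (hf : Fn f) : Fn (fun x => -f x) :=
  (Fn.copy (fun z : ℤ => -z) Sum.swap fun z i => by
    cases i with
    | inl i => rfl
    | inr i => show (- -z).toNat = z.toNat; rw [neg_neg]).comp hf

@[fun_prop] theorem Fn.natCastZ {f : X → ℕ} (hf : Fn f) : Fn (fun x => (f x : ℤ)) :=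
  Fn.of_graph (R := fun x z => z.toNat = f x ∧ (-z).toNat = 0) (by fun_prop) fun _ _ => by omega

@[fun_prop] theorem Fn.zadd {f g : X → ℤ} (hf : Fn f) (hg : Fn g) : Fn (fun x => f x + g x) :=
  Fn.of_graph (R := fun x z => z.toNat + (-f x).toNat + (-g x).toNat =
    (-z).toNat + (f x).toNat + (g x).toNat) (by fun_prop) fun _ _ => by omega

@[fun_prop] theorem Fn.zsub {f g : X → ℤ} (hf : Fn f) (hg : Fn g) : Fn (fun x => f x - g x) :=
  Fn.congr (f := fun x => f x + -g x) (by fun_prop) fun _ => by ring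

@[fun_prop] theorem Fn.zmul {f g : X → ℤ} (hf : Fn f) (hg : Fn g) : Fn (fun x => f x * g x) :=
  Fn.congr (f := fun x => (((f x).toNat * (g x).toNat + (-f x).toNat * (-g x).toNat : ℕ) : ℤ) -
    (((f x).toNat * (-g x).toNat + (-f x).toNat * (g x).toNat : ℕ) : ℤ)) (by fun_prop) fun x => by
    have h1 := Int.toNat_sub_toNat_neg (f x)
    have h2 := Int.toNat_sub_toNat_neg (g x)
    push_cast
    linear_combination (g x) * h1 + (((f x).toNat : ℤ) - (-f x).toNat) * h2

@[fun_prop] theorem Fn.natAbs {f : X → ℤ} (hf : Fn f) : Fn (fun x => (f x).natAbs) :=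
  Fn.congr (f := fun x => (f x).toNat + (-f x).toNat) (by fun_prop) fun _ => by omega

@[fun_prop] theorem SF.zle {f g : X → ℤ} (hf : Fn f) (hg : Fn g) : SF (fun x => f x ≤ g x) :=
  SF.congr (R := fun x => (f x - g x).toNat = 0) (by fun_prop) fun _ => by omega

@[fun_prop] theorem SF.zlt {f g : X → ℤ} (hf : Fn f) (hg : Fn g) : SF (fun x => f x < g x) :=
  SF.congr (R := fun x => f x + 1 ≤ g x) (by fun_prop) fun _ => by omega

@[fun_prop] theorem SF.zne {f g : X → ℤ} (hf : Fn f) (hg : Fn g) : SF (fun x => f x ≠ g x) :=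
  SF.congr (R := fun x => (f x - g x).natAbs ≠ 0) (by fun_prop) fun _ => by omega

@[fun_prop] theorem Fn.zpowc {f : X → ℤ} (hf : Fn f) (k : ℕ) : Fn (fun x => f x ^ k) := by
  induction k with
  | zero => simpa using Fn.const 1
  | succ k ih => simpa [pow_succ] using ih.zmul hf

theorem Fn.zsum {J : Type} (s : Finset J) {f : J → X → ℤ} (h : ∀ j ∈ s, Fn (f j)) :
    Fn (fun x => ∑ j ∈ s, f j x) := by
  classical
  induction s using Finset.induction_on with
  | empty => simpa using Fn.const 0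
  | insert a s ha ih =>
    simp only [Finset.sum_insert ha]
    exact (h a (by simp)).zadd (ih fun j hj => h j (by simp [hj]))

theorem Fn.zprod {J : Type} (s : Finset J) {f : J → X → ℤ} (h : ∀ j ∈ s, Fn (f j)) :
    Fn (fun x => ∏ j ∈ s, f j x) := by
  classical
  induction s using Finset.induction_on with
  | empty => simpa using Fn.const 1
  | insert a s ha ih =>
    simp only [Finset.prod_insert ha]
    exact (h a (by simp)).zmul (ih fun j hj => h j (by simp [hj]))

instance : Cd ℚ := Cd.ofInj (fun q : ℚ => (q.num, q.den))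
  (fun a b h => by simp only [Prod.mk.injEq] at h; exact Rat.ext h.1 h.2)
  (SF.congr (R := fun p : ℤ × ℕ => p.2 ≠ 0 ∧ Nat.Coprime p.1.natAbs p.2) (by fun_prop) fun p => by
    constructor
    · rintro ⟨h1, h2⟩
      exact ⟨⟨p.1, p.2, h1, h2⟩, rfl⟩
    · rintro ⟨q, rfl⟩; exact ⟨q.den_nz, q.reduced⟩)

@[fun_prop] theorem Fn.num {f : X → ℚ} (hf : Fn f) : Fn (fun x => (f x).num) :=
  (Fn.copy Rat.num Sum.inl fun _ _ => rfl).comp hf

@[fun_prop] theorem Fn.den {f : X → ℚ} (hf : Fn f) : Fn (fun x => (f x).den) :=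
  (Fn.copy Rat.den Sum.inr fun _ _ => rfl).comp hf

theorem rat_aux (q : ℚ) : (q.num : ℚ) = q * q.den := (Rat.mul_den_eq_num q).symm

@[fun_prop] theorem Fn.qadd {f g : X → ℚ} (hf : Fn f) (hg : Fn g) : Fn (fun x => f x + g x) :=
  Fn.of_graph (R := fun x z => z.num * ((f x).den * (g x).den) =
    ((f x).num * (g x).den + (g x).num * (f x).den) * z.den) (by fun_prop) fun x z => by
    rw [← Int.cast_inj (α := ℚ)]
    push_cast
    simp only [rat_aux]
    have h : ((z.den : ℚ) * (f x).den * (g x).den) ≠ 0 := by positivity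
    constructor
    · intro h1; apply mul_left_cancel₀ h; linear_combination h1
    · intro h1; rw [h1]; ring

@[fun_prop] theorem Fn.qmul {f g : X → ℚ} (hf : Fn f) (hg : Fn g) : Fn (fun x => f x * g x) :=
  Fn.of_graph (R := fun x z => z.num * ((f x).den * (g x).den) =
    ((f x).num * (g x).num) * z.den) (by fun_prop) fun x z => by
    rw [← Int.cast_inj (α := ℚ)]
    push_cast
    simp only [rat_aux]
    have h : ((z.den : ℚ) * (f x).den * (g x).den) ≠ 0 := by positivity
    constructor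
    · intro h1; apply mul_left_cancel₀ h; linear_combination h1
    · intro h1; rw [h1]; ring

@[fun_prop] theorem Fn.qneg {f : X → ℚ} (hf : Fn f) : Fn (fun x => -f x) :=
  Fn.congr (f := fun x => (-1) * f x) (by fun_prop) fun _ => by ring

@[fun_prop] theorem Fn.qsub {f g : X → ℚ} (hf : Fn f) (hg : Fn g) : Fn (fun x => f x - g x) :=
  Fn.congr (f := fun x => f x + -g x) (by fun_prop) fun _ => by ring

@[fun_prop] theorem SF.qne {f g : X → ℚ} (hf : Fn f) (hg : Fn g) : SF (fun x => f x ≠ g x) :=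
  SF.congr (R := fun x => (f x - g x).num ≠ 0) (by fun_prop) fun _ => by simp [sub_eq_zero]

@[fun_prop] theorem Fn.qdiv {f g : X → ℚ} (hf : Fn f) (hg : Fn g) : Fn (fun x => f x / g x) :=
  Fn.of_graph (R := fun x z => (g x = 0 ∧ z = 0) ∨ (g x ≠ 0 ∧ z * g x = f x))
    (SF.or (by fun_prop) (by fun_prop) fun _ h h' => h'.1 h.1) fun x z => by
    by_cases h : g x = 0
    · simp [h]
    · simp [h, eq_div_iff h]

@[fun_prop] theorem Fn.qpowc {f : X → ℚ} (hf : Fn f) (k : ℕ) : Fn (fun x => f x ^ k) := by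
  induction k with
  | zero => simpa using Fn.const 1
  | succ k ih => simpa [pow_succ] using ih.qmul hf

@[fun_prop] theorem Fn.pair {f g : X → ℕ} (hf : Fn f) (hg : Fn g) : Fn (fun x => Nat.pair (f x) (g x)) :=
  Fn.of_graph (R := fun x z => (f x < g x ∧ z = g x * g x + f x) ∨
      (g x ≤ f x ∧ z = f x * f x + f x + g x))
    (SF.or (by fun_prop) (by fun_prop) fun _ h h' => by omega) fun x z => by
    unfold Nat.pair
    split_ifs with h
    · simp [h]
    · simp [h, not_lt.1 h]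

@[fun_prop] theorem Fn.unpair {f : X → ℕ} (hf : Fn f) : Fn (fun x => Nat.unpair (f x)) :=
  Fn.of_graph (R := fun x p => Nat.pair p.1 p.2 = f x) (by fun_prop) fun x p => by
    constructor
    · intro h; rw [← h, Nat.unpair_pair]
    · rintro rfl; exact Nat.pair_unpair _

theorem SF.exLeast {R : X → ℕ → Prop} (hR : SF (fun p : X × ℕ => R p.1 p.2))
    (hR' : SF (fun p : X × ℕ => ¬ R p.1 p.2)) (hm : ∀ x n, R x n → R x (n + 1)) :
    SF (fun x => ∃ n, R x n) := by
  have hm' : ∀ x n m, n ≤ m → R x n → R x m := fun x n m h h' => Nat.le_induction h' (fun k _ => hm x k) m h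
  refine (SF.ex (R := fun x n => R x n ∧ (n = 0 ∨ (0 < n ∧ ¬ R x (n - 1)))) (hR.and (SF.or (by fun_prop)
    (SF.and (by fun_prop) (hR'.comp (f := fun p : X × ℕ => (p.1, p.2 - 1)) (by fun_prop)))
    fun _ _ _ => by omega)) ?_).congr fun x => ?_
  · have key : ∀ x n m, n < m → R x n → (m = 0 ∨ (0 < m ∧ ¬ R x (m - 1))) → False := by
      rintro x n m h h1 (h2 | ⟨-, h2⟩)
      · omega
      · exact h2 (hm' _ _ _ (by omega) h1)
    rintro x n m ⟨h1, h2⟩ ⟨h3, h4⟩
    rcases lt_trichotomy n m with h | h | h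
    · exact (key x n m h h1 h4).elim
    · exact h
    · exact (key x m n h h3 h2).elim
  · classical
    refine ⟨fun ⟨n, h, _⟩ => ⟨n, h⟩, fun h => ⟨Nat.find h, Nat.find_spec h, ?_⟩⟩
    rcases Nat.eq_zero_or_pos (Nat.find h) with h0 | h0
    · exact .inl h0
    · exact .inr ⟨h0, Nat.find_min h (by omega)⟩

end

theorem SF0.fin {σ : Type} {R : (σ → ℕ) → Prop} (h : SF0 R) :
    ∃ (m : ℕ) (P : MvPolynomial (σ ⊕ Fin m) ℤ), ∀ a : σ → ℕ,
      (R a ↔ ∃ w : Fin m → ℕ, MvPolynomial.eval (Sum.elim (fun i => (a i : ℤ)) fun j => (w j : ℤ)) P = 0) ∧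
      {w : Fin m → ℕ | MvPolynomial.eval (Sum.elim (fun i => (a i : ℤ)) fun j => (w j : ℤ)) P = 0}.Subsingleton := by
  obtain ⟨τ, _, F, hF, h⟩ := h
  obtain ⟨m, ⟨e⟩⟩ := Finite.exists_equiv_fin τ
  obtain ⟨P, hP⟩ := hF.comap (Sum.map id e)
  have key : ∀ (a : σ → ℕ) (w : Fin m → ℕ),
      MvPolynomial.eval (Sum.elim (fun i => (a i : ℤ)) fun j => (w j : ℤ)) P = F a (fun j => w (e j)) := by
    intro a w
    refine Eq.trans ?_ (hP (Sum.elim a w))
    congr 2
    funext i; cases i <;> rfl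
  refine ⟨m, P, fun a => ⟨?_, ?_⟩⟩
  · simp only [key, (h a).1]
    exact ⟨fun ⟨w, hw⟩ => ⟨fun j => w (e.symm j), by simpa using hw⟩, fun ⟨w, hw⟩ => ⟨_, hw⟩⟩
  · intro w hw w' hw'
    simp only [Set.mem_ofPred_eq, key] at hw hw'
    have := (h a).2 _ _ hw hw'
    funext j
    simpa using congrFun this (e.symm j)

end Vale.Agent.P345
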