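import Vale.Agent.P345.Exp

namespace Vale.Agent.P345
open Finset

theorem digit_sum (b N : ℕ) (s : ℕ → ℕ) (h : ∀ i < N, s i < b) :
    (∑ i ∈ range N, s i * b ^ i) < b ^ N ∧ ∀ k < N, (∑ i ∈ range N, s i * b ^ i) / b ^ k % b = s k := by
  induction N generalizing s with
  | zero => simp
  | succ N ih =>
    obtain ⟨h1, h2⟩ := ih (fun i => s (i + 1)) fun i hi => h _ (by omega)
    have h0 := h 0 (by omega)
    have e : ∑ i ∈ range (N + 1), s i * b ^ i = s 0 + b * ∑ i ∈ range N, s (i + 1) * b ^ i := by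
      rw [sum_range_succ', mul_sum, add_comm]
      congr 1
      · simp
      · exact sum_congr rfl fun i _ => by ring
    rw [e]
    refine ⟨by rw [pow_succ]; nlinarith, fun k hk => ?_⟩
    rcases k with _ | k
    · simp [Nat.mod_eq_of_lt h0]
    · rw [pow_succ', ← Nat.div_div_eq_div_mul, Nat.add_mul_div_left _ _ (by omega), Nat.div_eq_of_lt h0,
        zero_add, h2 k (by omega)]

theorem digit_ext (b N : ℕ) {c c' : ℕ} (h : c < b ^ N) (h' : c' < b ^ N)
    (e : ∀ k < N, c / b ^ k % b = c' / b ^ k % b) : c = c' := by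
  induction N generalizing c c' with
  | zero => simp at h h'; omega
  | succ N ih =>
    have h1 : c / b = c' / b := ih (Nat.div_lt_of_lt_mul (by rwa [pow_succ'] at h))
      (Nat.div_lt_of_lt_mul (by rwa [pow_succ'] at h')) fun k hk => by
        have := e (k + 1) (by omega)
        rwa [pow_succ', ← Nat.div_div_eq_div_mul, ← Nat.div_div_eq_div_mul] at this
    have h2 := e 0 (by omega)
    simp only [pow_zero, Nat.div_one] at h2
    rw [← Nat.div_add_mod c b, ← Nat.div_add_mod c' b, h1, h2]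

/-- binary digit sum -/
def hw (n : ℕ) : ℕ := (Nat.digits 2 n).sum

theorem hw_rec (n : ℕ) : hw n = n % 2 + hw (n / 2) := by
  rcases Nat.eq_zero_or_pos n with rfl | h
  · simp [hw]
  · rw [hw, Nat.digits_def' (by norm_num) h]; rfl

theorem hw_zero : hw 0 = 0 := by simp [hw]

theorem hw_cat (T a m : ℕ) (h : a < 2 ^ T) : hw (a + 2 ^ T * m) = hw a + hw m := by
  induction T generalizing a with
  | zero =>
    obtain rfl : a = 0 := by simpa using h
    simp [hw_zero]
  | succ T ih =>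
    rw [hw_rec, hw_rec a, pow_succ', mul_assoc, Nat.add_mul_mod_self_left,
      Nat.add_mul_div_left _ _ (by norm_num), ih _ (by rw [pow_succ'] at h; omega), add_assoc]

theorem hw_compl (t e f : ℕ) (h : e + f + 1 = 2 ^ t) : hw e + hw f = t := by
  induction t generalizing e f with
  | zero =>
    obtain ⟨rfl, rfl⟩ : e = 0 ∧ f = 0 := by omega
    simp [hw_zero]
  | succ t ih =>
    have := ih (e / 2) (f / 2) (by rw [pow_succ] at h; omega)
    rw [hw_rec e, hw_rec f]
    rw [pow_succ] at h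
    omega

theorem hw_delta (t D : ℕ) (h : D ≤ 2 ^ t) : (2 ^ t - 1) * (2 ^ t - D + 1) < 2 ^ (2 * t) ∧
    hw ((2 ^ t - 1) * (2 ^ t - D + 1)) = t + if D = 0 then t else 0 := by
  obtain ⟨u, hu⟩ : ∃ u, 2 ^ t = u + 1 := ⟨2 ^ t - 1, (Nat.sub_add_cancel Nat.one_le_two_pow).symm⟩
  constructor
  · rw [two_mul, pow_add, hu, Nat.add_sub_cancel]
    have : u + 1 - D ≤ u + 1 := Nat.sub_le _ _
    nlinarith
  · rcases D with _ | e
    · have h1 := hw_cat t u u (by omega)
      have h2 := hw_compl t u 0 (by omega)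
      rw [hw_zero] at h2
      rw [show (2 ^ t - 1) * (2 ^ t - 0 + 1) = u + 2 ^ t * u by rw [hu]; simp; ring, h1]
      simp; omega
    · obtain ⟨f, hf⟩ : ∃ f, u = e + f := ⟨u - e, by omega⟩
      have h1 := hw_cat t e f (by omega)
      have h2 := hw_compl t e f (by omega)
      rw [show (2 ^ t - 1) * (2 ^ t - (e + 1) + 1) = e + 2 ^ t * f by
        rw [hu, hf, show e + f + 1 - (e + 1) = f by omega]; simp; ring, h1]
      simp; omega

theorem hw_sum {J : Type} [DecidableEq J] (T : ℕ) (β δ : J → ℕ) (s : Finset J) (hβ : Set.InjOn β s)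
    (hδ : ∀ j ∈ s, δ j < 2 ^ T) :
    (∀ N, (∀ j ∈ s, β j < N) → ∑ j ∈ s, 2 ^ (T * β j) * δ j < 2 ^ (T * N)) ∧
      hw (∑ j ∈ s, 2 ^ (T * β j) * δ j) = ∑ j ∈ s, hw (δ j) := by
  induction s using Finset.induction_on_max_value β with
  | empty => simp [hw_zero]
  | insert a s ha hmax ih =>
    obtain ⟨h1, h2⟩ := ih (hβ.mono (by simp)) fun j hj => hδ j (by simp [hj])
    have h3 := h1 (β a) fun j hj => lt_of_le_of_ne (hmax j hj) fun e =>
      ha (hβ (by simp [hj]) (by simp) e ▸ hj)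
    rw [sum_insert ha, sum_insert ha]
    refine ⟨fun N hN => ?_, by rw [add_comm, hw_cat _ _ _ h3, h2, add_comm]⟩
    have h4 : 2 ^ (T * β a) * 2 ^ T ≤ 2 ^ (T * N) := by
      rw [← pow_add]
      exact Nat.pow_le_pow_right (by norm_num) (Nat.mul_le_mul_left T (hN a (by simp)))
    have h5 := Nat.mul_le_mul_left (2 ^ (T * β a)) (show δ a + 1 ≤ 2 ^ T from hδ a (by simp))
    rw [mul_add] at h5
    omega

section
variable {A : Type} [Cd A]

theorem Fn.choose {f g : A → ℕ} (hf : Fn f) (hg : Fn g) : Fn fun x => (f x + g x).choose (g x) := by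
  refine Fn.congr (f := fun x => (2 ^ (f x + g x) + 1 + 1) ^ (f x + g x) / (2 ^ (f x + g x) + 1) ^ g x %
    (2 ^ (f x + g x) + 1)) (by fun_prop) fun x => ?_
  rw [← (digit_sum (2 ^ (f x + g x) + 1) (f x + g x + 1) (fun i => (f x + g x).choose i)
    fun i _ => Nat.lt_succ_of_le (Nat.choose_le_two_pow _ _)).2 (g x) (by omega), add_pow]
  congr 2
  exact sum_congr rfl fun i _ => by simp [mul_comm]

@[fun_prop] theorem Fn.hw {f : A → ℕ} (hf : Fn f) : Fn fun x => hw (f x) := by
  have h1 := Fn.choose hf hf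
  refine Fn.of_graph (R := fun x h => ∃ r, (f x + f x).choose (f x) = 2 ^ h * (2 * r + 1))
    (SF.ex (SF.eq (h1.comp (g := fun p : (A × ℕ) × ℕ => p.1.1) (by fun_prop)) (by fun_prop))
      fun p r r' h h' => ?_) fun x h => ?_
  · have := Nat.eq_of_mul_eq_mul_left (by positivity) (h.symm.trans h')
    omega
  · have h2 := sub_one_mul_padicValNat_choose_eq_sub_sum_digits' (p := 2) (n := f x) (k := f x)
    have h3 := hw_rec (f x + f x)
    rw [show (f x + f x) % 2 = 0 by omega, show (f x + f x) / 2 = f x by omega] at h3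
    have h4 : padicValNat 2 ((f x + f x).choose (f x)) = P345.hw (f x) := by
      unfold P345.hw at *; omega
    have key : ∀ h r, padicValNat 2 (2 ^ h * (2 * r + 1)) = h := fun h r => by
      rw [padicValNat.mul (by positivity) (by positivity), padicValNat.prime_pow,
        padicValNat.eq_zero_of_not_dvd (by omega), add_zero]
    rw [← h4]
    constructor
    · rintro ⟨r, hr⟩; rw [hr, key]
    · rintro rfl
      obtain ⟨k, m, ⟨r, rfl⟩, hm⟩ := Nat.exists_eq_two_pow_mul_odd
        (Nat.choose_pos (show f x ≤ f x + f x by omega)).ne'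
      exact ⟨r, by rw [hm, key]⟩

theorem Fn.geo (r : ℕ) {q B : A → ℕ} (hq : Fn q) (hB : Fn B) :
    Fn fun x => ∑ y ∈ range (B x), y ^ r * (q x + 2) ^ y := by
  induction r using Nat.strong_induction_on with
  | _ r ih =>
    have h1 : Fn fun x => ∑ j ∈ range r, r.choose j * ∑ y ∈ range (B x), y ^ j * (q x + 2) ^ y :=
      Fn.sum _ fun j hj => (Fn.const _).mul (ih j (mem_range.1 hj))
    refine Fn.of_graph (R := fun x z => (q x + 1) * z + (q x + 2) *
      (∑ j ∈ range r, r.choose j * ∑ y ∈ range (B x), y ^ j * (q x + 2) ^ y) + 0 ^ r =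
        B x ^ r * (q x + 2) ^ B x) (SF.eq (Fn.add (Fn.add (by fun_prop)
          (Fn.mul (by fun_prop) (h1.comp Fn.fst'))) (by fun_prop)) (by fun_prop)) fun x z => ?_
    have h2 : (q x + 1) * (∑ y ∈ range (B x), y ^ r * (q x + 2) ^ y) + (q x + 2) *
      (∑ j ∈ range r, r.choose j * ∑ y ∈ range (B x), y ^ j * (q x + 2) ^ y) + 0 ^ r =
        B x ^ r * (q x + 2) ^ B x := by
      induction B x with
      | zero => simp
      | succ b ihb =>
        have h3 := add_pow b 1 r
        rw [sum_range_succ] at h3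
        simp only [one_pow, mul_one, Nat.cast_id, Nat.choose_self] at h3
        simp only [sum_range_succ, mul_add, sum_add_distrib]
        have h4 : ∑ j ∈ range r, r.choose j * (b ^ j * (q x + 2) ^ b) =
            (∑ j ∈ range r, b ^ j * r.choose j) * (q x + 2) ^ b := by
          rw [sum_mul]; exact sum_congr rfl fun j _ => by ring
        rw [h4, h3, pow_succ]
        linear_combination ihb
    rw [← h2]
    constructor
    · intro h
      exact Nat.eq_of_mul_eq_mul_left (show 0 < q x + 1 by omega) (by omega)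
    · rintro rfl; rfl

open MvPolynomial

/-- the cube -/
def cube (k B : ℕ) : Finset (Fin k → ℕ) := Fintype.piFinset fun _ => range B

noncomputable def ev {σ τ : Type} (P : MvPolynomial (σ ⊕ τ) ℤ) (a : σ → ℕ) (y : τ → ℕ) : ℤ :=
  eval (Sum.elim (fun i => (a i : ℤ)) fun j => (y j : ℤ)) P

theorem Fn.cubeSum {σ : Type} [Finite σ] {k : ℕ} (P : MvPolynomial (σ ⊕ Fin k) ℤ) {a : A → σ → ℕ}
    {q : A → Fin k → ℕ} {B : A → ℕ} (ha : Fn a) (hq : Fn q) (hB : Fn B) :
    Fn fun x => ∑ y ∈ cube k (B x), ((∏ i, (q x i + 2) ^ y i : ℕ) : ℤ) * ev P (a x) y := by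
  have := Fintype.ofFinite σ
  induction P using MvPolynomial.induction_on' with
  | monomial s c =>
    have h1 : Fn fun x => ∏ i, ∑ y ∈ range (B x), y ^ s (.inr i) * (q x i + 2) ^ y :=
      Fn.prod _ fun i _ => Fn.geo _ (by fun_prop) hB
    have h2 : Fn fun x => ∏ i, a x i ^ s (.inl i) := Fn.prod _ fun i _ => by fun_prop
    refine Fn.congr ((Fn.const c).zmul (h2.mul h1).natCastZ) fun x => ?_
    rw [prod_univ_sum]
    simp only [ev, eval_monomial, cube]
    push_cast
    rw [mul_sum, mul_sum]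
    refine sum_congr rfl fun y _ => ?_
    rw [Finsupp.prod_fintype _ _ (by simp), Fintype.prod_sum_type, prod_mul_distrib]
    simp only [Sum.elim_inl, Sum.elim_inr]
    ring
  | add P Q hP hQ =>
    refine Fn.congr (hP.zadd hQ) fun x => ?_
    simp only [ev, map_add, mul_add, sum_add_distrib]

theorem exists_bound {σ : Type} [Finite σ] {k : ℕ} (P : MvPolynomial (σ ⊕ Fin k) ℤ) {a : A → σ → ℕ}
    {B : A → ℕ} (ha : Fn a) (hB : Fn B) :
    ∃ g : A → ℕ, Fn g ∧ ∀ x, ∀ y ∈ cube k (B x), (ev P (a x) y).natAbs ≤ g x := by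
  induction P using MvPolynomial.induction_on with
  | C c => exact ⟨fun _ => c.natAbs, by fun_prop, fun x y _ => by simp [ev]⟩
  | add P Q hP hQ =>
    obtain ⟨g, hg, h⟩ := hP
    obtain ⟨g', hg', h'⟩ := hQ
    refine ⟨fun x => g x + g' x, by fun_prop, fun x y hy => ?_⟩
    simp only [ev, map_add] at *
    exact (Int.natAbs_add_le _ _).trans (Nat.add_le_add (h x y hy) (h' x y hy))
  | mul_X P i hP =>
    obtain ⟨g, hg, h⟩ := hP
    cases i with
    | inl i =>
      refine ⟨fun x => g x * a x i, by fun_prop, fun x y hy => ?_⟩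
      simp only [ev, map_mul, eval_X, Int.natAbs_mul, Sum.elim_inl, Int.natAbs_natCast] at *
      exact Nat.mul_le_mul_right _ (h x y hy)
    | inr i =>
      refine ⟨fun x => g x * B x, by fun_prop, fun x y hy => ?_⟩
      simp only [ev, map_mul, eval_X, Int.natAbs_mul, Sum.elim_inr, Int.natAbs_natCast] at *
      exact Nat.mul_le_mul (h x y hy) (mem_range.1 (Fintype.mem_piFinset.1 hy i)).le

theorem Fn.count {σ : Type} [Finite σ] {k : ℕ} (P : MvPolynomial (σ ⊕ Fin k) ℤ) {a : A → σ → ℕ}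
    {B : A → ℕ} (ha : Fn a) (hB : Fn B) :
    Fn fun x => ((cube k (B x)).filter fun y => ev P (a x) y = 0).card := by
  obtain ⟨g, hg, hb⟩ := exists_bound P ha hB
  let t : A → ℕ := fun x => g x * g x + 1
  have ht : Fn t := by simp only [t]; fun_prop
  let q : A → Fin k → ℕ := fun x i => 2 ^ (2 * t x * (B x + 1) ^ (i : ℕ)) - 2
  have hq : Fn q := by simp only [q]; fun_prop
  have h1 := Fn.cubeSum 1 ha hq hB
  have h2 := Fn.cubeSum (P * P) ha hq hB
  have h3 := ((((Fn.const (2 : ℕ)).pow ht).sub (Fn.const 1)).natCastZ.zmul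
    (((((Fn.const (2 : ℕ)).pow ht).add (Fn.const 1)).natCastZ.zmul h1).zsub h2)).toNat.hw
  refine Fn.congr ((h3.div ht).sub (hB.powc k)) fun x => ?_
  have ht0 : 0 < t x := Nat.succ_pos _
  let β : (Fin k → ℕ) → ℕ := fun y => ∑ i, y i * (B x + 1) ^ (i : ℕ)
  let δ : (Fin k → ℕ) → ℕ := fun y => (2 ^ t x - 1) * (2 ^ t x - (ev P (a x) y).natAbs ^ 2 + 1)
  have hD : ∀ y ∈ cube k (B x), (ev P (a x) y).natAbs ^ 2 ≤ 2 ^ t x := fun y hy => by
    have := Nat.pow_le_pow_left (hb x y hy) 2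
    have h4 : t x < 2 ^ t x := Nat.lt_two_pow_self
    simp only [t] at h4 ⊢
    nlinarith
  have hβ : Set.InjOn β (cube k (B x)) := by
    intro y hy y' hy' e
    have hy1 := fun i => mem_range.1 (Fintype.mem_piFinset.1 hy i)
    have hy2 := fun i => mem_range.1 (Fintype.mem_piFinset.1 hy' i)
    have := finFunctionFinEquiv.injective (a₁ := fun i => (⟨y i, Nat.lt_succ_of_lt (hy1 i)⟩ : Fin (B x + 1)))
      (a₂ := fun i => ⟨y' i, Nat.lt_succ_of_lt (hy2 i)⟩) (Fin.ext e)
    exact funext fun i => congrArg Fin.val (congrFun this i)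
  have h4 := (hw_sum (2 * t x) β δ _ hβ fun y hy => (hw_delta _ _ (hD y hy)).1).2
  have h5 : (((2 ^ t x - 1 : ℕ) : ℤ) * (((2 ^ t x + 1 : ℕ) : ℤ) *
      (∑ y ∈ cube k (B x), ((∏ i, (q x i + 2) ^ y i : ℕ) : ℤ) * ev 1 (a x) y) -
      ∑ y ∈ cube k (B x), ((∏ i, (q x i + 2) ^ y i : ℕ) : ℤ) * ev (P * P) (a x) y)) =
      ((∑ y ∈ cube k (B x), 2 ^ (2 * t x * β y) * δ y : ℕ) : ℤ) := by
    rw [mul_sum, ← sum_sub_distrib, mul_sum, Nat.cast_sum]
    refine sum_congr rfl fun y hy => ?_
    have e1 : ∏ i, (q x i + 2) ^ y i = 2 ^ (2 * t x * β y) := by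
      simp only [β, q, mul_sum]
      rw [← prod_pow_eq_pow_sum]
      refine prod_congr rfl fun i _ => ?_
      rw [Nat.sub_add_cancel (Nat.le_self_pow (by positivity) 2), ← pow_mul]
      congr 1; ring
    rw [e1]
    simp only [δ]
    rw [Nat.cast_mul, Nat.cast_mul, Nat.cast_succ (2 ^ t x), Nat.cast_succ (2 ^ t x - _),
      Nat.cast_sub (hD y hy), Nat.cast_pow (Int.natAbs _), Int.natAbs_sq]
    simp only [ev, map_one, map_mul]
    ring
  rw [h5, Int.toNat_natCast, h4, sum_congr rfl fun y hy => (hw_delta _ _ (hD y hy)).2,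
    sum_add_distrib, ← sum_filter]
  simp only [sum_const, smul_eq_mul, cube, Fintype.card_piFinset, card_range, prod_const, card_univ,
    Fintype.card_fin, ← add_mul, Nat.mul_div_cancel _ ht0, Nat.add_sub_cancel_left]
  congr 2
  simp

theorem SF.ball {R : A → ℕ → Prop} (hR : SF fun p : A × ℕ => R p.1 p.2) {b : A → ℕ} (hb : Fn b) :
    SF fun x => ∀ i < b x, R x i := by
  classical
  have h1 : SF fun p : A × ℕ => p.2 < b p.1 ∧ R p.1 p.2 := SF.and (by fun_prop) hR
  obtain ⟨m, P, hP⟩ := SF0.fin h1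
  let ρ : (Cd.ι A ⊕ Unit) ⊕ Fin m → Cd.ι A ⊕ Fin (m + 1) :=
    Sum.elim (Sum.elim Sum.inl fun _ => .inr 0) fun j => .inr j.succ
  have h2 : ∀ (x : A) (y : Fin (m + 1) → ℕ), ev (rename ρ P) (Cd.enc x) y =
      ev P (Cd.enc (x, y 0)) fun j => y j.succ := by
    intro x y
    simp only [ev, eval_rename]
    congr 2
    funext i
    rcases i with (i | i) | i <;> rfl
  have h3 : ∀ (x : A) (i : ℕ), (i < b x ∧ R x i ↔ ∃ w, ev P (Cd.enc (x, i)) w = 0) ∧
      ∀ w w', ev P (Cd.enc (x, i)) w = 0 → ev P (Cd.enc (x, i)) w' = 0 → w = w' := by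
    intro x i
    obtain ⟨h4, h5⟩ := hP (Cd.enc (x, i))
    rw [SF.iff0 (R := fun p : A × ℕ => p.2 < b p.1 ∧ R p.1 p.2)] at h4
    exact ⟨h4, fun w w' h h' => h5 h h'⟩
  have henc : Fn (Cd.enc : A → Cd.ι A → ℕ) := Fn.copy _ Prod.fst fun _ _ => rfl
  have hc := Fn.count (rename ρ P) (a := fun p : A × ℕ => Cd.enc p.1) (B := fun p => p.2)
    (henc.comp Fn.fst') Fn.snd'
  refine (SF.exLeast (R := fun x B => b x ≤
    ((cube (m + 1) B).filter fun y => ev (rename ρ P) (Cd.enc x) y = 0).card)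
    (SF.le (by fun_prop) hc) ((SF.lt hc (hb.comp Fn.fst')).congr fun p => by simp) ?_).congr fun x => ?_
  · intro x B h
    refine h.trans (card_le_card (filter_subset_filter _ ?_))
    exact Fintype.piFinset_subset _ _ fun _ => range_subset_range.2 (by omega)
  · constructor
    · rintro ⟨B, h⟩ i hi
      have h4 : Set.InjOn (fun y : Fin (m + 1) → ℕ => y 0)
          ((cube (m + 1) B).filter fun y => ev (rename ρ P) (Cd.enc x) y = 0 : Finset _) := by
        intro y hy y' hy' e
        simp only [coe_filter, Set.mem_ofPred_eq, h2] at hy hy' e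
        have := (h3 x (y' 0)).2 _ _ (e ▸ hy.2) hy'.2
        exact funext fun j => Fin.cases e (fun j => congrFun this j) j
      have h5 : ((cube (m + 1) B).filter fun y => ev (rename ρ P) (Cd.enc x) y = 0).image
          (fun y => y 0) ⊆ range (b x) := by
        intro i hi
        obtain ⟨y, hy, rfl⟩ := mem_image.1 hi
        rw [mem_filter, h2] at hy
        exact mem_range.2 ((h3 x _).1.2 ⟨_, hy.2⟩).1
      have h6 := eq_of_subset_of_card_le h5 (by rwa [card_image_of_injOn h4, card_range])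
      obtain ⟨y, hy, rfl⟩ := mem_image.1 (h6 ▸ mem_range.2 hi)
      rw [mem_filter, h2] at hy
      exact ((h3 x _).1.2 ⟨_, hy.2⟩).2
    · intro h
      have h4 : ∀ i, ∃ w, i < b x → ev P (Cd.enc (x, i)) w = 0 := fun i => by
        by_cases hi : i < b x
        · obtain ⟨w, hw⟩ := (h3 x i).1.1 ⟨hi, h i hi⟩
          exact ⟨w, fun _ => hw⟩
        · exact ⟨0, fun h => (hi h).elim⟩
      choose w hw using h4
      refine ⟨b x + ∑ i ∈ range (b x), ∑ j, w i j, ?_⟩
      rw [← card_range (b x)]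
      refine card_le_card_of_injOn (fun i => Fin.cons i (w i)) (fun i hi => ?_)
        fun i _ j _ e => congrFun e 0
      rw [coe_range, Set.mem_Iio] at hi
      rw [mem_coe, mem_filter, h2]
      refine ⟨Fintype.mem_piFinset.2 fun j => mem_range.2 ?_, hw i hi⟩
      rw [card_range]
      refine Fin.cases (by simp; omega) (fun j => ?_) j
      have h5 : w i j ≤ ∑ j, w i j := single_le_sum (f := w i) (fun _ _ => Nat.zero_le _) (mem_univ j)
      have h6 : ∑ j, w i j ≤ ∑ i ∈ range (b x), ∑ j, w i j :=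
        single_le_sum (f := fun i => ∑ j, w i j) (fun _ _ => Nat.zero_le _) (mem_range.2 hi)
      simp only [Fin.cons_succ]
      omega

end

end Vale.Agent.P345
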