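import Vale.Agent.P345.EC

namespace Vale.Agent.P345

theorem sq_class {x y : ℚ} {k : ℕ} {c : ℤ} (hx : x ≠ 0) (hk : k = 1 ∨ k = 2) (hc : c = 2 ∨ c = -2)
    (h : y ^ 2 = k * x * (x ^ 2 + c)) :
    ∃ r : ℚ, r ≠ 0 ∧ (x = r ^ 2 ∨ x = -r ^ 2 ∨ x = 2 * r ^ 2 ∨ x = -(2 * r ^ 2)) := by
  have hd : (x.den : ℚ) ≠ 0 := by positivity
  have hn : (x.num : ℚ) = x * x.den := (Rat.mul_den_eq_num x).symm
  have h1 : IsSquare ((k * x.num * x.den * (x.num ^ 2 + c * x.den ^ 2) : ℤ) : ℚ) := by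
    refine ⟨y * x.den ^ 2, ?_⟩
    push_cast
    rw [hn]
    linear_combination (-(x.den : ℚ) ^ 4) * h
  obtain ⟨m, hm⟩ := Rat.isSquare_intCast_iff.1 h1
  obtain ⟨a, b, hab, ha⟩ := Nat.sq_mul_squarefree (x.num.natAbs * x.den)
  have hN : x.num.natAbs * x.den ≠ 0 := by simp [hx]
  have hb : b ≠ 0 := by rintro rfl; exact hN (by rw [← hab]; simp)
  have ha0 : a ≠ 0 := ha.ne_zero
  have h2 : b ^ 2 * (a * (k * (x.num ^ 2 + c * x.den ^ 2).natAbs)) = m.natAbs ^ 2 := by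
    have := congrArg Int.natAbs hm
    simp only [Int.natAbs_mul, Int.natAbs_natCast] at this
    rw [← mul_assoc, hab, sq m.natAbs, ← this]; ring
  obtain ⟨m', hm'⟩ : b ∣ m.natAbs := (Nat.pow_dvd_pow_iff two_ne_zero).1 ⟨_, h2.symm⟩
  rw [hm', mul_pow] at h2
  have h3 := Nat.eq_of_mul_eq_mul_left (by positivity) h2
  have key : ∀ {p}, p.Prime → p ∣ a → p = 2 := by
    intro p hp hpa
    by_contra hp2
    have hp' : Prime (p : ℤ) := Nat.prime_iff_prime_int.1 hp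
    have hnd : ¬ ((p : ℤ) ∣ x.num ∧ (p : ℤ) ∣ x.den) := by
      rintro ⟨h4, h5⟩
      have := Nat.dvd_gcd (Int.natCast_dvd.1 h4) (Int.natCast_dvd_natCast.1 h5)
      rw [x.reduced] at this
      exact hp.one_lt.ne' (Nat.dvd_one.1 this)
    have hp2' : ¬ p ∣ 2 := fun h => hp2 ((Nat.prime_dvd_prime_iff_eq hp Nat.prime_two).1 h)
    have hW : ¬ p ∣ k * (x.num ^ 2 + c * x.den ^ 2).natAbs := by
      intro h4
      rcases (Nat.Prime.dvd_mul hp).1 h4 with h4 | h4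
      · rcases hk with rfl | rfl
        · exact hp.one_lt.ne' (Nat.dvd_one.1 h4)
        · exact hp2' h4
      · rw [← Int.natCast_dvd] at h4
        have h5 : p ∣ x.num.natAbs * x.den := hab ▸ hpa.mul_left _
        rcases (Nat.Prime.dvd_mul hp).1 h5 with h5 | h5
        · rw [← Int.natCast_dvd] at h5
          have h6 : (p : ℤ) ∣ c * x.den ^ 2 := (dvd_add_right (dvd_pow h5 two_ne_zero)).1 h4
          rcases hp'.dvd_or_dvd h6 with h6 | h6
          · apply hp2'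
            rcases hc with rfl | rfl
            · exact_mod_cast h6
            · exact_mod_cast (dvd_neg.1 h6)
          · exact hnd ⟨h5, hp'.dvd_of_dvd_pow h6⟩
        · rw [← Int.natCast_dvd_natCast] at h5
          have h6 : (p : ℤ) ∣ x.num ^ 2 := (dvd_add_left ((dvd_pow h5 two_ne_zero).mul_left c)).1 h4
          exact hnd ⟨hp'.dvd_of_dvd_pow h6, h5⟩
    have h4 : p ∣ m' := hp.dvd_of_dvd_pow (h3 ▸ hpa.mul_right _)
    have h5 : p ^ 2 ∣ a * (k * (x.num ^ 2 + c * x.den ^ 2).natAbs) := h3 ▸ pow_dvd_pow_of_dvd h4 2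
    have h6 : p ^ 2 ∣ a := (Nat.Coprime.pow_left 2 ((Nat.Prime.coprime_iff_not_dvd hp).2 hW)).dvd_of_dvd_mul_right h5
    exact hp.one_lt.ne' (Nat.isUnit_iff.1 (ha p (by rwa [← sq])))
  have ha' : a = 1 ∨ a = 2 := by
    have := Nat.eq_prime_pow_of_unique_prime_dvd ha0 key
    generalize a.primeFactorsList.length = j at this
    rcases j with _ | _ | j
    · exact .inl this
    · exact .inr this
    · have := ha 2 ⟨2 ^ j, by rw [this]; ring⟩
      simp at this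
  have h7 : |x| = a * (b / x.den) ^ 2 := by
    have h8 : ((b : ℚ) ^ 2 * a) = |x| * x.den * x.den := by
      have : ((x.num.natAbs : ℕ) : ℚ) = |x| * x.den := by
        rw [Nat.cast_natAbs, Int.cast_abs, hn, abs_mul, abs_of_nonneg (a := (x.den : ℚ)) (by positivity)]
      rw [← this]; exact_mod_cast hab
    field_simp
    linear_combination -h8
  refine ⟨b / x.den, by positivity, ?_⟩
  rcases ha' with rfl | rfl <;> rcases abs_cases x with h8 | h8 <;> push_cast at h7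
  · left; linarith [h8.1]
  · right; left; linarith [h8.1]
  · right; right; left; linarith [h8.1]
  · right; right; right; linarith [h8.1]

theorem halve_aux {u s : ℚ} (hu : u ≠ 0) (hs : s ≠ 0) (h : s ^ 4 / 4 + 2 = u ^ 2 * s ^ 2) :
    ∃ S : G, S + S ≠ 0 ∧ X (S + S) = u ^ 2 := by
  have h1 : (s ^ 2 / 2 + u * s) ^ 2 - s ^ 2 * (s ^ 2 / 2 + u * s) - 2 = 0 := by linear_combination -h
  set x := s ^ 2 / 2 + u * s with hx
  have hx0 : x ≠ 0 := by rintro h0; rw [h0] at h1; norm_num at h1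
  obtain ⟨S, hS, hSx, hSy⟩ := pt_mk (x := x) (y := s * x) (by linear_combination (-x) * h1)
  obtain ⟨h2, h3⟩ := X_dbl hS (by rw [hSy]; positivity)
  refine ⟨S, h2, ?_⟩
  rw [h3, hSx, hSy]
  have : x ^ 2 + 2 = 2 * u * s * x := by linear_combination -h1 + 2 * x * hx
  rw [this]
  field_simp
  norm_num

theorem halve {Q : G} (hQ : Q ≠ 0) {u : ℚ} (hu : u ≠ 0) (hx : X Q = u ^ 2) : ∃ S : G, Q = S + S := by
  suffices H : ∃ S : G, S + S ≠ 0 ∧ X (S + S) = u ^ 2 by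
    obtain ⟨S, h1, h2⟩ := H
    rcases X_eq hQ h1 (hx.trans h2.symm) with h | h
    · exact ⟨S, h⟩
    · exact ⟨-S, by rw [h]; abel⟩
  have hc := on_curve hQ
  rw [hx] at hc
  set v := Y Q / u with hv
  have hv2 : v ^ 2 = u ^ 4 - 2 := by
    rw [hv]; field_simp; linear_combination hc
  have hZ : (u ^ 2 + v) * (u ^ 2 - v) = 2 := by linear_combination -hv2
  have hZ0 : u ^ 2 + v ≠ 0 := by intro h0; rw [h0] at hZ; norm_num at hZ
  have hpos : 0 < u ^ 2 + v := by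
    by_contra hneg
    have h1 : u ^ 2 + v < 0 := lt_of_le_of_ne (not_lt.1 hneg) hZ0
    have : 0 < u ^ 2 := by positivity
    nlinarith
  obtain ⟨r, hr, h⟩ := sq_class (x := u ^ 2 + v) (y := 2 * u * (u ^ 2 + v)) (k := 2) (c := 2) hZ0
    (.inr rfl) (.inl rfl) (by push_cast; linear_combination (2 * (u ^ 2 + v)) * hZ)
  have hr2 : 0 < r ^ 2 := by positivity
  rcases h with h | h | h | h
  · refine halve_aux (s := 2 / r) hu (by positivity) ?_
    have : v = r ^ 2 - u ^ 2 := by linarith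
    rw [this] at hv2
    field_simp
    linear_combination 4 * hv2
  · linarith
  · refine halve_aux (s := 2 * r) hu (by positivity) ?_
    have : v = 2 * r ^ 2 - u ^ 2 := by linarith
    rw [this] at hv2
    linear_combination hv2
  · linarith

theorem exists_PT : ∃ P T : G, P ≠ 0 ∧ X P = -1 ∧ Y P = 1 ∧ T + T = 0 ∧
    ∀ Q : G, ∃ S : G, ∃ a b : ℤ, Q = a • P + b • T + (S + S) := by
  obtain ⟨P, hP, hPx, hPy⟩ := pt_mk (x := -1) (y := 1) (by norm_num)
  obtain ⟨T, hT, hTx, hTy⟩ := pt_mk (x := 0) (y := 0) (by norm_num)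
  have hTT : T + T = 0 := dbl_zero hTy
  refine ⟨P, T, hP, hPx, hPy, hTT, ?_⟩
  let A : G → Prop := fun Q => ∃ S : G, ∃ a b : ℤ, Q = a • P + b • T + (S + S)
  have hAP : ∀ Q, A (Q + P) → A Q := by
    rintro Q ⟨S, a, b, h⟩
    exact ⟨S, a - 1, b, by rw [eq_sub_of_add_eq h, sub_smul, one_smul]; abel⟩
  have hAT : ∀ Q, A (Q + T) → A Q := by
    rintro Q ⟨S, a, b, h⟩
    exact ⟨S, a, b - 1, by rw [eq_sub_of_add_eq h, sub_smul, one_smul]; abel⟩
  have h0 : ∀ Q, Q ≠ 0 → X Q = 0 → A Q := by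
    intro Q hQ hx
    have hc := on_curve hQ
    rw [hx] at hc
    have hy : Y Q = 0 := by simpa using hc
    exact ⟨0, 0, 1, by rw [pt_ext hQ hT (hx.trans hTx.symm) (hy.trans hTy.symm)]; simp⟩
  have h1 : ∀ Q, Q ≠ 0 → ∀ r : ℚ, X Q = r ^ 2 → A Q := by
    intro Q hQ r hx
    by_cases hr : r = 0
    · exact h0 Q hQ (by simp [hx, hr])
    · obtain ⟨S, hS⟩ := halve hQ hr hx
      exact ⟨S, 0, 0, by simpa using hS⟩
  have hXT : ∀ Q, Q ≠ 0 → X Q ≠ 0 → Q + T ≠ 0 ∧ X (Q + T) = -2 / X Q := by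
    intro Q hQ hx
    obtain ⟨h2, h3⟩ := X_add hQ hT (by rwa [hTx])
    refine ⟨h2, ?_⟩
    have hc := on_curve hQ
    rw [h3, hTx, hTy, sub_zero, sub_zero, sub_zero]
    field_simp
    linear_combination hc
  have h2 : ∀ Q, Q ≠ 0 → ∀ r : ℚ, r ≠ 0 → X Q = -r ^ 2 → A Q := by
    intro Q hQ r hr hx
    by_cases hx1 : X Q = X P
    · rcases X_eq hQ hP hx1 with h | h
      · exact ⟨0, 1, 0, by simp [h]⟩
      · exact ⟨0, -1, 0, by simp [h]⟩
    · obtain ⟨h2, h3⟩ := X_add hQ hP hx1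
      have hc := on_curve hQ
      have hd : X Q + 1 ≠ 0 := fun h => hx1 (by linarith)
      refine hAP Q (h1 _ h2 ((Y Q + X Q) / (X Q + 1) / r) ?_)
      rw [h3, hPx, hPy, div_pow _ r, show r ^ 2 = -X Q by linarith]
      have : X Q ≠ 0 := by rw [hx]; simpa using hr
      simp only [sub_neg_eq_add]
      field_simp
      linear_combination (X Q + 1) * hc
  intro Q
  by_cases hQ : Q = 0
  · exact ⟨0, 0, 0, by simp [hQ]⟩
  by_cases hx : X Q = 0
  · exact h0 Q hQ hx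
  have hc := on_curve hQ
  obtain ⟨r, hr, h⟩ := sq_class (y := Y Q) (k := 1) (c := -2) hx (.inl rfl) (.inr rfl)
    (by push_cast; linear_combination hc)
  obtain ⟨h3, h4⟩ := hXT Q hQ hx
  rcases h with h | h | h | h
  · exact h1 Q hQ r h
  · exact h2 Q hQ r hr h
  · exact hAT Q (h2 _ h3 (1 / r) (by positivity) (by rw [h4, h]; field_simp))
  · exact hAT Q (h1 _ h3 (1 / r) (by rw [h4, h]; field_simp))

end Vale.Agent.P345
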