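import Mathlib

namespace Vale.Agent.P345
open WeierstrassCurve WeierstrassCurve.Affine Height

/-- the curve y^2 = x^3 - 2x -/
def W : WeierstrassCurve ℚ := ⟨0, 0, 0, -2, 0⟩

instance : W.IsElliptic := ⟨by
  rw [isUnit_iff_ne_zero]; simp [W, Δ, b₂, b₄, b₆, b₈]⟩

abbrev G : Type := W.toAffine.Point

def X : G → ℚ
  | .zero => 0
  | .some x _ _ => x

def Y : G → ℚ
  | .zero => 0
  | .some _ y _ => y

theorem X_zero : X 0 = 0 := rfl

theorem on_curve {P : G} (h : P ≠ 0) : Y P ^ 2 = X P ^ 3 - 2 * X P := by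
  rcases P with _ | ⟨x, y, hP⟩
  · exact (h rfl).elim
  · have := (equation_iff _ _).1 hP.1
    simp only [W] at this
    show y ^ 2 = x ^ 3 - 2 * x
    linear_combination this

theorem pt_ext {P Q : G} (hP : P ≠ 0) (hQ : Q ≠ 0) (hx : X P = X Q) (hy : Y P = Y Q) : P = Q := by
  rcases P with _ | ⟨x, y, h⟩
  · exact (hP rfl).elim
  rcases Q with _ | ⟨x', y', h'⟩
  · exact (hQ rfl).elim
  simp only [X, Y] at hx hy
  subst hx hy; rfl

theorem pt_mk {x y : ℚ} (h : y ^ 2 = x ^ 3 - 2 * x) : ∃ P : G, P ≠ 0 ∧ X P = x ∧ Y P = y := by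
  have : W.toAffine.Equation x y := by
    rw [equation_iff]; simp only [W]; linear_combination h
  exact ⟨.some x y (equation_iff_nonsingular.1 this), Point.some_ne_zero _, rfl, rfl⟩

theorem X_neg (P : G) : X (-P) = X P := by cases P <;> rfl

theorem Y_neg (P : G) : Y (-P) = -Y P := by
  rcases P with _ | ⟨x, y, h⟩
  · show (0 : ℚ) = -0; simp
  · show W.toAffine.negY x y = -y; simp [W]

theorem X_eq {P Q : G} (hP : P ≠ 0) (hQ : Q ≠ 0) (hx : X P = X Q) : P = Q ∨ P = -Q := by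
  rcases P with _ | ⟨x, y, h⟩
  · exact (hP rfl).elim
  rcases Q with _ | ⟨x', y', h'⟩
  · exact (hQ rfl).elim
  exact Point.X_eq_iff.1 hx

theorem X_add {P Q : G} (hP : P ≠ 0) (hQ : Q ≠ 0) (hx : X P ≠ X Q) :
    P + Q ≠ 0 ∧ X (P + Q) = ((Y P - Y Q) / (X P - X Q)) ^ 2 - X P - X Q := by
  rcases P with _ | ⟨x, y, h⟩
  · exact (hP rfl).elim
  rcases Q with _ | ⟨x', y', h'⟩
  · exact (hQ rfl).elim
  simp only [X, Y] at hx ⊢
  rw [Point.add_of_X_ne hx]
  refine ⟨Point.some_ne_zero _, ?_⟩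
  simp only [slope_of_X_ne hx, addX]
  simp [W]

theorem X_dbl {P : G} (hP : P ≠ 0) (hy : Y P ≠ 0) :
    P + P ≠ 0 ∧ X (P + P) = (X P ^ 2 + 2) ^ 2 / (4 * Y P ^ 2) := by
  have hc := on_curve hP
  rcases P with _ | ⟨x, y, h⟩
  · exact (hP rfl).elim
  simp only [X, Y] at hy hc ⊢
  have hy' : y ≠ W.toAffine.negY x y := by
    simp only [negY, W]; intro h; apply hy; linarith
  rw [Point.add_self_of_Y_ne hy']
  refine ⟨Point.some_ne_zero _, ?_⟩
  simp only [slope_of_Y_ne rfl hy', addX]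
  simp only [W, negY]
  have : y - (-y - 0 * x - 0) = 2 * y := by ring
  rw [this]
  field_simp
  linear_combination (-32 * x) * hc

theorem dbl_zero {P : G} (hy : Y P = 0) : P + P = 0 := by
  by_cases hP : P = 0
  · simp [hP]
  have : P = -P := pt_ext hP (neg_ne_zero.2 hP) (X_neg P).symm (by rw [Y_neg, hy, neg_zero])
  exact add_eq_zero_iff_eq_neg.2 this

theorem xRep_eq {P : G} (hP : P ≠ 0) : P.xRep = ![X P, 1] := by
  rcases P with _ | ⟨x, y, h⟩
  · exact (hP rfl).elim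
  rfl

/-- naive height of a rational number -/
def Hq (q : ℚ) : ℕ := max q.num.natAbs q.den

theorem Hq_pos (q : ℚ) : 0 < Hq q := lt_of_lt_of_le q.den_pos (le_max_right _ _)

noncomputable def ht (P : G) : ℝ := Real.log (Hq (X P))

theorem ht_eq (P : G) : logHeight P.xRep = ht P := by
  by_cases hP : P = 0
  · subst hP; simp [ht, X_zero, Hq]
  · rw [xRep_eq hP, ← logHeight₁_eq_logHeight, Rat.logHeight₁_eq_log_max, ht, Hq]

theorem ht_nonneg (P : G) : 0 ≤ ht P := Real.log_natCast_nonneg _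

theorem ht_neg (P : G) : ht (-P) = ht P := by rw [ht, X_neg, ht]

theorem ht_zero : ht 0 = 0 := by simp [ht, X_zero, Hq]

def FF (v : Fin 3 → ℚ) : Fin 3 → ℚ :=
  ![(v 0 + 2 * v 2) ^ 2, 2 * v 1 * (v 0 - 2 * v 2), v 1 ^ 2 - 4 * v 0 * v 2]

theorem FF_eq (v : Fin 3 → ℚ) : (fun i => (addSubMap W i).eval v) = FF v := by
  funext i
  fin_cases i <;> simp [addSubMap, FF, W, b₂, b₄, b₆, b₈] <;> ring

theorem sym_dbl {P : G} (hP : P ≠ 0) :
    ∃ c : ℚ, c ≠ 0 ∧ FF (P.sym2x P) = c • (P + P).sym2x 0 := by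
  have hc := on_curve hP
  by_cases hy : Y P = 0
  · refine ⟨(X P ^ 2 + 2) ^ 2, by positivity, ?_⟩
    rw [dbl_zero hy]
    funext i
    fin_cases i <;> simp [FF, Point.sym2x, xRep_eq hP]
    · ring
    · rw [hy] at hc
      have : (X P + X P) * (X P * X P - 2) = 0 := by linear_combination (-2) * hc
      simpa using this
    · ring
  · obtain ⟨h1, h2⟩ := X_dbl hP hy
    refine ⟨4 * Y P ^ 2, by positivity, ?_⟩
    funext i
    fin_cases i <;> simp [FF, Point.sym2x, xRep_eq hP, xRep_eq h1, h2]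
    · field_simp
    · linear_combination (-4) * hc
    · ring

theorem sym_addsub (P Q : G) : ∃ c : ℚ, c ≠ 0 ∧ FF (P.sym2x Q) = c • (P + Q).sym2x (P - Q) := by
  by_cases hP : P = 0
  · subst hP
    refine ⟨1, one_ne_zero, ?_⟩
    by_cases hQ : Q = 0
    · subst hQ; funext i; fin_cases i <;> simp [FF]
    · funext i; fin_cases i <;> simp [FF, Point.sym2x, xRep_eq hQ] <;> ring
  by_cases hQ : Q = 0
  · subst hQ
    refine ⟨1, one_ne_zero, ?_⟩
    funext i; fin_cases i <;> simp [FF, Point.sym2x, xRep_eq hP] <;> ring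
  by_cases hx : X P = X Q
  · rcases X_eq hP hQ hx with rfl | rfl
    · simpa using sym_dbl hP
    · obtain ⟨c, h1, h2⟩ := sym_dbl hQ
      refine ⟨c, h1, ?_⟩
      rw [Point.sym2x_neg_left, h2, neg_add_cancel, show -Q - Q = -(Q + Q) by abel,
        Point.sym2x_neg_right, Point.sym2x_comm]
  · obtain ⟨h1, h2⟩ := X_add hP hQ hx
    obtain ⟨h3, h4⟩ := X_add hP (neg_ne_zero.2 hQ) (by rwa [X_neg])
    rw [X_neg, Y_neg, ← sub_eq_add_neg] at h4
    rw [← sub_eq_add_neg] at h3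
    have hd : X P - X Q ≠ 0 := sub_ne_zero.2 hx
    have c1 := on_curve hP
    have c2 := on_curve hQ
    refine ⟨(X P - X Q) ^ 2, by positivity, ?_⟩
    funext i
    fin_cases i <;> simp [FF, Point.sym2x, xRep_eq hP, xRep_eq hQ, xRep_eq h1, xRep_eq h3, h2, h4]
    · field_simp
      grind
    · field_simp
      grind
    · ring

theorem parallelogram : ∃ C : ℝ, ∀ P Q : G, |ht (P + Q) + ht (P - Q) - 2 * (ht P + ht Q)| ≤ C := by
  obtain ⟨C₁, h1⟩ := abs_logHeight_addSubMap_sub_two_mul_logHeight_le W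
  obtain ⟨C₂, h2⟩ := abs_logHeight_sym2_sub_le ℚ
  have h3 : ∀ P Q : G, |logHeight (P.sym2x Q) - (ht P + ht Q)| ≤ C₂ := by
    intro P Q
    have e : ∀ P : G, ![P.xRep 0, P.xRep 1] = P.xRep := fun P => by funext i; fin_cases i <;> rfl
    have := h2 (a := P.xRep 0) (b := P.xRep 1) (c := Q.xRep 0) (d := Q.xRep 1)
      (by rw [e]; exact P.xRep_ne_zero) (by rw [e]; exact Q.xRep_ne_zero)
    rwa [e, e, ht_eq, ht_eq] at this
  refine ⟨C₁ + 3 * C₂, fun P Q => ?_⟩
  obtain ⟨c, hc, h4⟩ := sym_addsub P Q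
  have h5 := h1 (P.sym2x Q)
  rw [FF_eq, h4, logHeight_smul_eq_logHeight _ hc] at h5
  have h6 := h3 P Q
  have h7 := h3 (P + Q) (P - Q)
  rw [abs_le] at *
  constructor <;> linarith [h5.1, h5.2, h6.1, h6.2, h7.1, h7.2]

theorem finite_ht (B : ℝ) : {P : G | ht P ≤ B}.Finite := by
  have h1 := NumberField.finite_setOfPred_logHeight₁_le ℚ B
  have h2 : ∀ x : ℚ, {P : G | X P = x}.Finite := by
    intro x
    by_cases h : ∃ Q : G, Q ≠ 0 ∧ X Q = x
    · obtain ⟨Q, hQ, rfl⟩ := h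
      refine (Set.toFinite {0, Q, -Q}).subset fun P hP => ?_
      by_cases h0 : P = 0
      · simp [h0]
      · rcases X_eq h0 hQ hP with h | h <;> simp [h]
    · refine (Set.toFinite {0}).subset fun P hP => ?_
      by_contra h0
      exact h ⟨P, h0, hP⟩
  refine (h1.biUnion fun x _ => h2 x).subset fun P hP => ?_
  simp only [Set.mem_iUnion]
  refine ⟨X P, ?_, rfl⟩
  show logHeight₁ (X P) ≤ B
  rw [Rat.logHeight₁_eq_log_max]
  exact hP

instance : Northcott ht := ⟨finite_ht⟩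

end Vale.Agent.P345
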