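import Vale.Agent.P345.Growth

namespace Vale.Agent.P345
open Pell

theorem yn_bounds {b : ℕ} (h : 1 < b) (n : ℕ) :
    (2 * b - 1) ^ n ≤ yn h (n + 1) ∧ yn h (n + 1) ≤ (2 * b) ^ n := by
  induction n with
  | zero => simp
  | succ n ih =>
    have h1 := yn_succ_succ h n
    have h2 : yn h n ≤ yn h (n + 1) := (strictMono_y h).monotone (by omega)
    rw [pow_succ, pow_succ, show n + 1 + 1 = n + 2 from rfl]
    obtain ⟨c, hc⟩ : ∃ c, 2 * b = c + 1 := ⟨2 * b - 1, by omega⟩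
    rw [hc] at h1 ih ⊢
    rw [Nat.add_sub_cancel] at ih ⊢
    constructor <;> nlinarith [ih.1, ih.2]

theorem bern (e n : ℕ) : (e + 1) ^ n * (e + 1) ≤ e ^ n * (e + 1) + n * (e + 1) ^ n := by
  induction n with
  | zero => simp
  | succ n ih =>
    have : e ^ n ≤ (e + 1) ^ n := Nat.pow_le_pow_left (by omega) n
    rw [pow_succ, pow_succ]
    nlinarith [Nat.mul_le_mul_right (e + 1) ih, Nat.mul_le_mul_right (e + 1) this]

/-- y is the Pell number of index n+1 for parameter b and is at most v -/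
def Pin (v b n y : ℕ) : Prop := ∃ x, x * x - (b * b - 1) * y * y = 1 ∧ y ≤ v ∧ y % (b - 1) = n + 1

theorem pin_sf {A : Type} [Cd A] {v b n y : A → ℕ} (hv : Fn v) (hb : Fn b) (hn : Fn n) (hy : Fn y) :
    SF fun t => Pin (v t) (b t) (n t) (y t) :=
  SF.ex (by fun_prop) fun t x x' h h' => by
    have : x * x = x' * x' := by omega
    exact Nat.mul_self_inj.1 this

theorem pin_iff {v b n y : ℕ} (h : 1 < b) (hn : n + 2 < b) (hv : v ≤ 2 ^ (b - 3)) :
    Pin v b n y ↔ y = yn h (n + 1) ∧ y ≤ v := by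
  constructor
  · rintro ⟨x, h1, h2, h3⟩
    obtain ⟨m, -, rfl⟩ := eq_pell h h1
    refine ⟨?_, h2⟩
    rw [yn_modEq_a_sub_one h m] at h3
    by_cases hm : m < b - 1
    · rw [Nat.mod_eq_of_lt hm] at h3; rw [h3]
    · exfalso
      obtain ⟨k, rfl⟩ : ∃ k, m = k + 1 := ⟨m - 1, by omega⟩
      have h4 : 2 ^ k ≤ (2 * b - 1) ^ k := Nat.pow_le_pow_left (by omega) k
      have h5 : 2 ^ (b - 3) < 2 ^ k := Nat.pow_lt_pow_right (by norm_num) (by omega)
      have := (yn_bounds h k).1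
      omega
  · rintro ⟨rfl, h2⟩
    refine ⟨xn h (n + 1), pell_eq h _, h2, ?_⟩
    rw [yn_modEq_a_sub_one h (n + 1), Nat.mod_eq_of_lt (by omega)]

theorem pow_aux : Fn (fun t : ℕ × ℕ => (t.1 + 2) ^ t.2) := by
  obtain ⟨V, K, w0, hV, h⟩ := exists_V
  let A : ℕ → ℕ → ℕ → ℕ := fun p q n => p ^ (3 * K) + (p + 1) * n + q + w0 + n + 4
  let R : ℕ → ℕ → ℕ → ℕ × ℕ → Prop := fun p q n y => Pin (V (A p q n)) (A p q n) n y.1 ∧
    Pin (V (A p q n)) (A p q n * q) n y.2 ∧ 2 * p * y.1 < 2 * y.2 + y.1 ∧ 2 * y.2 < (2 * p + 1) * y.1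
  have key : ∀ p q n, 2 ≤ q → ∃ y0 : ℕ × ℕ, ∀ y, R p q n y ↔ y = y0 ∧ p = q ^ n := by
    intro p q n hq
    simp only [R]
    have ha : A p q n = p ^ (3 * K) + (p + 1) * n + q + w0 + n + 4 := rfl
    generalize A p q n = a at *
    have h1 : 1 < a := by omega
    have h2 : a ≤ a * q := Nat.le_mul_of_pos_right _ (by omega)
    have h3 : 1 < a * q := by omega
    obtain ⟨hV1, hV2⟩ := h a (by omega)
    refine ⟨(yn h1 (n + 1), yn h3 (n + 1)), fun y => ?_⟩
    rw [pin_iff h1 (by omega) hV1, pin_iff h3 (by omega)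
      (hV1.trans (Nat.pow_le_pow_right (by norm_num) (by omega)))]
    obtain ⟨b1, b2⟩ := yn_bounds h1 n
    obtain ⟨b3, b4⟩ := yn_bounds h3 n
    have b5 : (2 * a - 1) ^ n * q ^ n ≤ (2 * (a * q) - 1) ^ n := by
      rw [← mul_pow]
      apply Nat.pow_le_pow_left
      rw [Nat.sub_mul, mul_assoc]; omega
    rw [← mul_assoc, mul_pow (2 * a)] at b4
    have b6 := bern (2 * a - 1) n
    rw [show 2 * a - 1 + 1 = 2 * a by omega] at b6
    have b7 : (2 * p + 1) * (2 * a) ^ n < (2 * p + 2) * (2 * a - 1) ^ n := by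
      have h4 : (p + 1) * n < a := by omega
      have h5 : 0 < (2 * a) ^ n := by positivity
      by_contra hc
      have h6 := Nat.mul_le_mul_right a (not_lt.1 hc)
      have h7 := Nat.mul_le_mul_left (p + 1) b6
      nlinarith
    have b8 := b5.trans b3
    have b9 : (2 * a - 1) ^ n ≤ (2 * a) ^ n := b1.trans b2
    have b10 : p = q ^ n → (2 * a) ^ n * q ^ n ≤ V a := by
      intro hp
      refine le_trans ?_ (hV2 (3 * n) ?_)
      · rw [← mul_pow, pow_mul]
        apply Nat.pow_le_pow_left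
        have : 2 * q ≤ a * a := Nat.mul_le_mul (by omega) (by omega)
        nlinarith
      · have : 2 ^ n ≤ p := hp ▸ Nat.pow_le_pow_left hq n
        have := Nat.pow_le_pow_left this (3 * K)
        rw [← pow_mul, show n * (3 * K) = K * (3 * n) by ring] at this
        omega
    have b11 : 0 < q ^ n := by positivity
    generalize (2 * a) ^ n = α at *
    generalize (2 * a - 1) ^ n = β at *
    generalize q ^ n = Q at *
    generalize yn h1 (n + 1) = y1 at *
    generalize yn h3 (n + 1) = y2 at *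
    obtain ⟨z1, z2⟩ := y
    simp only [Prod.mk.injEq]
    constructor
    · rintro ⟨⟨rfl, -⟩, ⟨rfl, -⟩, c1, c2⟩
      refine ⟨⟨rfl, rfl⟩, ?_⟩
      rcases lt_trichotomy p Q with hlt | heq | hlt
      · exfalso
        have := Nat.mul_le_mul_left β (show p + 1 ≤ Q from hlt)
        nlinarith
      · exact heq
      · exfalso
        obtain ⟨r, rfl⟩ : ∃ r, p = r + 1 := ⟨p - 1, by omega⟩
        have := Nat.mul_le_mul_left α (show Q ≤ r by omega)
        nlinarith
    · rintro ⟨⟨rfl, rfl⟩, rfl⟩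
      have := b10 rfl
      refine ⟨⟨rfl, by nlinarith⟩, ⟨rfl, by nlinarith⟩, by nlinarith, by nlinarith⟩
  refine Fn.of_graph (R := fun t p => ∃ y, R p (t.1 + 2) t.2 y) (SF.ex ?_ ?_) ?_
  · simp only [R, A]
    exact SF.and (pin_sf (by fun_prop) (by fun_prop) (by fun_prop) (by fun_prop))
      (SF.and (pin_sf (by fun_prop) (by fun_prop) (by fun_prop) (by fun_prop)) (by fun_prop))
  · intro t y y' h1 h2
    obtain ⟨y0, h0⟩ := key t.2 (t.1.1 + 2) t.1.2 (by omega)
    exact ((h0 y).1 h1).1.trans ((h0 y').1 h2).1.symm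
  · intro t p
    obtain ⟨y0, h0⟩ := key p (t.1 + 2) t.2 (by omega)
    simp [h0]

@[fun_prop] theorem Fn.pow {A : Type} [Cd A] {f g : A → ℕ} (hf : Fn f) (hg : Fn g) :
    Fn (fun x => f x ^ g x) := by
  have h1 : Fn (fun x => (f x - 2 + 2) ^ g x) := pow_aux.comp (g := fun x => (f x - 2, g x)) (by fun_prop)
  refine Fn.of_graph (R := fun x y => (2 ≤ f x ∧ y = (f x - 2 + 2) ^ g x) ∨
    ((f x < 2 ∧ g x = 0 ∧ y = 1) ∨ (f x < 2 ∧ 0 < g x ∧ y = f x)))
    (SF.or (SF.and (by fun_prop) (SF.eq (by fun_prop) (h1.comp Fn.fst')))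
      (SF.or (by fun_prop) (by fun_prop) fun _ _ _ => by omega)
      fun _ _ _ => by omega) fun x y => ?_
  by_cases h : 2 ≤ f x
  · simp [h, Nat.sub_add_cancel h, not_lt.2 h]
  · rcases Nat.eq_zero_or_pos (g x) with h0 | h0
    · simp [h, h0, not_le.1 h]
    · have : f x ^ g x = f x := by
        rcases (show f x = 0 ∨ f x = 1 by omega) with h2 | h2 <;> simp [h2, h0.ne']
      simp [h, h0, h0.ne', not_le.1 h, this]

end Vale.Agent.P345
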