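import Vale.Agent.P345.Rank
import Vale.Agent.P345.Calc2

namespace Vale.Agent.P345

section seq
variable {a : ℤ → ℝ} {D : ℝ} (h0 : ∀ n, 0 ≤ a n)
  (h2 : ∀ n, 2 ≤ a (n + 1 + 1) + a n - 2 * a (n + 1) ∧ a (n + 1 + 1) + a n - 2 * a (n + 1) ≤ D)
include h2

theorem seq_mono (n : ℤ) (k : ℕ) : a (n + 1) - a n + 2 * k ≤ a (n + k + 1) - a (n + k) ∧
    a (n + k + 1) - a (n + k) ≤ a (n + 1) - a n + D * k := by
  induction k with
  | zero => simp
  | succ k ih =>
    have := h2 (n + k)
    push_cast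
    rw [← add_assoc]
    constructor <;> nlinarith [this.1, this.2, ih.1, ih.2]

theorem seq_mono' {n m : ℤ} (h : n ≤ m) : a (n + 1) - a n + 2 * (m - n) ≤ a (m + 1) - a m := by
  obtain ⟨k, rfl⟩ := Int.le.dest h
  have := (seq_mono h2 n k).1
  push_cast; linarith

theorem seq_exu (t : ℝ) : ∃! n : ℤ, a n - a (n - 1) < t ∧ t ≤ a (n + 1) - a n := by
  obtain ⟨N, hN⟩ := exists_nat_ge (|t| + |a 1 - a 0|)
  obtain ⟨n, hn, hn'⟩ := Int.exists_least_of_bdd (P := fun n => t ≤ a (n + 1) - a n) ⟨-N, fun z hz => by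
      by_contra hlt
      have h1 := seq_mono' h2 (n := z) (m := 0) (by omega)
      have h3 : (z : ℝ) < -N := by exact_mod_cast not_le.1 hlt
      simp only [zero_add, Int.cast_zero] at h1
      have := neg_abs_le t
      have := le_abs_self (a 1 - a 0)
      have := abs_nonneg t
      have := abs_nonneg (a 1 - a 0)
      linarith⟩ ⟨N, by
      have h1 := seq_mono' h2 (n := 0) (m := N) (by omega)
      simp only [zero_add, Int.cast_zero, Int.cast_natCast] at h1
      have := le_abs_self t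
      have := neg_abs_le (a 1 - a 0)
      have := abs_nonneg t
      have := abs_nonneg (a 1 - a 0)
      linarith⟩
  refine ⟨n, ⟨?_, hn⟩, fun m hm => le_antisymm ?_ (hn' m hm.2)⟩
  · by_contra h
    have := hn' (n - 1) (by simpa using h)
    omega
  · by_contra h
    have h1 := seq_mono' h2 (n := n) (m := m - 1) (by omega)
    have h3 : (n : ℝ) ≤ ((m - 1 : ℤ) : ℝ) := by exact_mod_cast (by omega : n ≤ m - 1)
    rw [sub_add_cancel] at h1
    linarith [hm.1]

include h0 in
theorem seq_lower {t : ℝ} {n : ℤ} (h : t ≤ a (n + 1) - a n) (i : ℕ) :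
    i * t - D * (i * (i + 1) / 2) ≤ a n := by
  suffices H : a (n - i) + i * t - D * (i * (i + 1) / 2) ≤ a n by linarith [h0 (n - i)]
  induction i with
  | zero => simp
  | succ i ih =>
    have := (seq_mono h2 (n - (i + 1 : ℕ)) (i + 1)).2
    rw [sub_add_cancel, show n - (i + 1 : ℕ) + 1 = n - i by push_cast; ring] at this
    push_cast at this ⊢
    linarith

include h0 in
theorem seq_upper {t : ℝ} {n : ℤ} (ht : 0 ≤ t) (h : a n - a (n - 1) < t) (h' : t ≤ a (n + 1) - a n) :
    a n ≤ a 0 + t * (t + a 0 + 2) / 2 := by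
  have ha0 := h0 0
  rcases le_or_gt n 0 with hn | hn
  · have : ∀ k : ℕ, a n ≤ a (n + k) := by
      intro k
      induction k with
      | zero => simp
      | succ k ih =>
        have := (seq_mono h2 n k).1
        push_cast
        rw [← add_assoc]
        have : (0 : ℝ) ≤ k := by positivity
        linarith
    obtain ⟨k, hk⟩ := Int.le.dest hn
    have := this k
    rw [hk] at this
    have : 0 ≤ t * (t + a 0 + 2) / 2 := by positivity
    linarith
  · have H : ∀ k : ℕ, (k : ℤ) ≤ n → a k ≤ a 0 + k * t := by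
      intro k
      induction k with
      | zero => simp
      | succ k ih =>
        intro hk
        push_cast at hk ⊢
        have h3 := seq_mono' h2 (n := k) (m := n - 1) (by omega)
        have h4 : ((k : ℤ) : ℝ) ≤ ((n - 1 : ℤ) : ℝ) := by exact_mod_cast (by omega : (k : ℤ) ≤ n - 1)
        rw [sub_add_cancel] at h3
        linarith [ih (by omega)]
    obtain ⟨k, rfl⟩ := Int.eq_ofNat_of_zero_le hn.le
    have h3 := seq_mono' h2 (n := 0) (m := k - 1) (by omega)
    rw [sub_add_cancel] at h3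
    push_cast at h3
    have h4 : (k : ℝ) ≤ (t + a 0 + 2) / 2 := by linarith [h0 1]
    have := H k le_rfl
    nlinarith
end seq

theorem exists_sel {A B : Type} [Cd A] [Cd B] (key : B → ℕ) (hk : Fn key) (hinj : Function.Injective key)
    {R : A → B → Prop} (hR : SF fun p : A × B => R p.1 p.2) {m : ℕ} (hm0 : m ≠ 0)
    (hm : ∀ x, {y | R x y}.ncard = m) : ∃ f : A → B, Fn f ∧ ∀ x, R x (f x) := by
  classical
  obtain ⟨m, rfl⟩ := Nat.exists_eq_succ_of_ne_zero hm0
  let T : A → (Fin (m + 1) → B) → Prop := fun x s => (∀ i, R x (s i)) ∧ ∀ i j, i < j → key (s i) < key (s j)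
  have hT : SF fun p : A × (Fin (m + 1) → B) => T p.1 p.2 := by
    refine SF.and (SF.all fun i => hR.comp (f := fun p : A × (Fin (m + 1) → B) => (p.1, p.2 i)) (by fun_prop))
      (SF.all fun i => SF.all fun j => ?_)
    by_cases h : i < j
    · simp only [h, true_implies]; fun_prop
    · simp only [h, false_implies]; fun_prop
  have hu : ∀ x, ∃! s, T x s := by
    intro x
    have hfin : {y | R x y}.Finite := Set.finite_of_ncard_ne_zero (by rw [hm]; omega)
    have hc : (hfin.toFinset.image key).card = m + 1 := by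
      rw [Finset.card_image_of_injective _ hinj, ← Set.ncard_eq_toFinset_card _ hfin, hm]
    have h1 : ∀ i, ∃ y, R x y ∧ key y = (hfin.toFinset.image key).orderEmbOfFin hc i := fun i => by
      obtain ⟨y, h1, h2⟩ := Finset.mem_image.1 (Finset.orderEmbOfFin_mem _ hc i)
      exact ⟨y, by simpa using h1, h2⟩
    choose s hs hs' using h1
    have h2 : ∀ s, T x s → (fun i => key (s i)) = (hfin.toFinset.image key).orderEmbOfFin hc :=
      fun s h => Finset.orderEmbOfFin_unique hc
        (fun i => Finset.mem_image_of_mem _ (by simpa using h.1 i)) h.2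
    refine ⟨s, ⟨hs, fun i j hij => ?_⟩, fun s' h => funext fun i => hinj ?_⟩
    · rw [hs', hs']; exact OrderEmbedding.strictMono _ hij
    · rw [hs']; exact congrFun (h2 s' h) i
  choose s hs hs' using hu
  have hF : Fn s := Fn.of_graph hT fun x y => ⟨hs' x y, fun h => h ▸ hs x⟩
  exact ⟨fun x => s x 0, by fun_prop, fun x => (hs x).1 0⟩

@[fun_prop] theorem Fn.hq {A : Type} [Cd A] {f : A → ℚ} (hf : Fn f) : Fn (fun x => Hq (f x)) := by
  unfold Hq; fun_prop

theorem log_bound (M : ℝ) (hM : 0 ≤ M) : ∃ w0 : ℕ, ∀ w : ℕ, w0 ≤ w →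
    M + Real.log w * (Real.log w + M + 2) / 2 ≤ (w - 3 : ℕ) * Real.log 2 := by
  have h1 := (Real.isLittleO_pow_log_id_atTop (n := 2)).bound (c := 1 / 10) (by norm_num)
  have h2 := Real.isLittleO_log_id_atTop.bound (c := 1 / (10 * (M + 2))) (by positivity)
  obtain ⟨b, hb⟩ := Filter.eventually_atTop.1 ((h1.and h2).and (Filter.eventually_ge_atTop (10 * M + 30)))
  obtain ⟨w0, hw0⟩ := exists_nat_ge b
  refine ⟨w0, fun w hw => ?_⟩
  obtain ⟨⟨h3, h4⟩, h5⟩ := hb w (hw0.trans (by exact_mod_cast hw))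
  have hw3 : 3 ≤ w := by
    have : (3 : ℝ) ≤ w := by linarith
    exact_mod_cast this
  have hl : 0 ≤ Real.log w := Real.log_natCast_nonneg w
  simp only [id, Real.norm_eq_abs, abs_of_nonneg hl, abs_of_nonneg (sq_nonneg (Real.log w)),
    Nat.abs_cast] at h3 h4
  have h6 : Real.log w * (M + 2) ≤ w / 10 := by
    have := mul_le_mul_of_nonneg_right h4 (show 0 ≤ M + 2 by positivity)
    refine this.trans (le_of_eq ?_)
    field_simp
  have := Real.log_two_gt_d9
  rw [Nat.cast_sub hw3]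
  push_cast
  nlinarith

theorem exists_V : ∃ (V : ℕ → ℕ) (K w0 : ℕ), Fn V ∧ ∀ w, w0 ≤ w →
    V w ≤ 2 ^ (w - 3) ∧ ∀ j, 2 ^ (K * j) ≤ w → w ^ j ≤ V w := by
  obtain ⟨C, hC⟩ := parallelogram
  obtain ⟨R, hR0, hR, hfin⟩ := exists_R (C / 2 + 1)
  set D := 2 * ht R + C with hD
  have h2 : ∀ (Q : G) (n : ℤ), 2 ≤ ht (Q + (n + 1 + 1) • R) + ht (Q + n • R) - 2 * ht (Q + (n + 1) • R) ∧
      ht (Q + (n + 1 + 1) • R) + ht (Q + n • R) - 2 * ht (Q + (n + 1) • R) ≤ D := by
    intro Q n
    have := abs_le.1 (hC (Q + (n + 1) • R) R)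
    rw [show Q + (n + 1) • R + R = Q + (n + 1 + 1) • R by rw [add_zsmul R (n + 1), one_zsmul, add_assoc],
      show Q + (n + 1) • R - R = Q + n • R by rw [add_zsmul, one_zsmul]; abel] at this
    constructor <;> linarith [this.1, this.2]
  have hD0 : 0 ≤ D := by linarith [(h2 0 0).1, (h2 0 0).2]
  let Sel : ℝ → G → Prop := fun t S => ht S - ht (S - R) < t ∧ t ≤ ht (S + R) - ht S
  have hSel : ∀ t (Q : G) (n : ℤ), Sel t (Q + n • R) ↔ ht (Q + n • R) - ht (Q + (n - 1) • R) < t ∧
      t ≤ ht (Q + (n + 1) • R) - ht (Q + n • R) := by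
    intro t Q n
    simp only [Sel]
    rw [show Q + n • R + R = Q + (n + 1) • R by rw [add_zsmul, one_zsmul, add_assoc],
      show Q + n • R - R = Q + (n - 1) • R by rw [sub_zsmul, one_zsmul]; abel]
  have hcard : ∀ t, {S | Sel t S}.ncard = Nat.card (G ⧸ AddSubgroup.zmultiples R) := by
    intro t
    rw [← Set.ncard_univ]
    refine Set.BijOn.ncard_eq (f := QuotientAddGroup.mk) ⟨fun _ _ => trivial, ?_, ?_⟩
    · intro S hS S' hS' h
      obtain ⟨n, hn⟩ := AddSubgroup.mem_zmultiples_iff.1 (QuotientAddGroup.eq.1 h)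
      have e : S' = S + n • R := by rw [hn]; abel
      obtain ⟨k, -, hk⟩ := seq_exu (a := fun n => ht (S + n • R)) (h2 S) t
      have e1 := hk 0 ((hSel t S 0).1 (by simpa using hS))
      have e2 := hk n ((hSel t S n).1 (e ▸ hS'))
      rw [e, e2, ← e1]; simp
    · intro q _
      obtain ⟨Q, rfl⟩ := QuotientAddGroup.mk_surjective q
      obtain ⟨k, hk, -⟩ := seq_exu (a := fun n => ht (Q + n • R)) (h2 Q) t
      refine ⟨Q + k • R, (hSel t Q k).2 hk, ?_⟩
      rw [eq_comm, QuotientAddGroup.eq, AddSubgroup.mem_zmultiples_iff]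
      exact ⟨k, by abel⟩
  have hlow : ∀ t S (j : ℕ), Sel t S → 3 * D * j ≤ t → j * t ≤ ht S := by
    intro t S j hS hj
    have := seq_lower (a := fun n => ht (S + n • R)) (fun _ => ht_nonneg _) (h2 S) (n := 0) (t := t)
      ((hSel t S 0).1 (by simpa using hS)).2 (2 * j)
    simp only [zero_zsmul, add_zero] at this
    push_cast at this
    rcases Nat.eq_zero_or_pos j with rfl | hj0
    · simpa using ht_nonneg S
    · have hj1 : (1 : ℝ) ≤ j := by exact_mod_cast hj0
      have : 0 ≤ j * (t - 3 * D * j) := by apply mul_nonneg <;> linarith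
      have : 0 ≤ D * j * (j - 1) := by apply mul_nonneg (by positivity); linarith
      nlinarith
  obtain ⟨M, hM⟩ : ∃ M : ℝ, ∀ q : G ⧸ AddSubgroup.zmultiples R, ht q.out ≤ M :=
    ⟨_, fun q => Finite.le_ciSup (fun q : G ⧸ AddSubgroup.zmultiples R => ht q.out) q⟩
  have hM0 : 0 ≤ M := (ht_nonneg _).trans (hM 0)
  have hup : ∀ t S, 0 ≤ t → Sel t S → ht S ≤ M + t * (t + M + 2) / 2 := by
    intro t S ht0 hS
    obtain ⟨n, hn⟩ := AddSubgroup.mem_zmultiples_iff.1
      (QuotientAddGroup.eq.1 (QuotientAddGroup.out_eq' (S : G ⧸ AddSubgroup.zmultiples R)))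
    have hM' := hM S
    set Q := (S : G ⧸ AddSubgroup.zmultiples R).out
    have e : S = Q + n • R := by rw [hn]; abel
    rw [e] at hS ⊢
    have := seq_upper (a := fun n => ht (Q + n • R)) (fun _ => ht_nonneg _) (h2 Q) ht0
      ((hSel t Q n).1 hS).1 ((hSel t Q n).1 hS).2
    simp only [zero_zsmul, add_zero] at this
    nlinarith
  obtain ⟨w1, hw1⟩ := log_bound M hM0
  obtain ⟨w2, hw2⟩ := exists_nat_gt (Real.exp (3 * D + ht R))
  obtain ⟨K, hK⟩ := exists_nat_ge (6 * D)
  let Sel' : ℕ → ℚ × ℚ → Prop := fun w p => p.2 ^ 2 = p.1 ^ 3 - 2 * p.1 ∧ p.1 ≠ X R ∧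
    Hq p.1 < w * Hq (((p.2 + Y R) / (p.1 - X R)) ^ 2 - p.1 - X R) ∧
    w * Hq p.1 ≤ Hq (((p.2 - Y R) / (p.1 - X R)) ^ 2 - p.1 - X R)
  have hw2' : ∀ w : ℕ, w2 ≤ w → 0 < w ∧ 3 * D + ht R < Real.log w := by
    intro w hw
    have h1 : Real.exp (3 * D + ht R) < w := hw2.trans_le (by exact_mod_cast hw)
    have h3 : (0 : ℝ) < w := (Real.exp_pos _).trans h1
    exact ⟨by exact_mod_cast h3, (Real.lt_log_iff_exp_lt h3).2 h1⟩
  have hiff : ∀ w : ℕ, 0 < w → ∀ S : G, S ≠ 0 → X S ≠ X R → (Sel' w (X S, Y S) ↔ Sel (Real.log w) S) := by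
    intro w hw S hS hx
    obtain ⟨-, h3⟩ := X_add hS hR0 hx
    obtain ⟨-, h4⟩ := X_add hS (neg_ne_zero.2 hR0) (by rwa [X_neg])
    rw [X_neg, Y_neg, ← sub_eq_add_neg, sub_neg_eq_add] at h4
    simp only [Sel', Sel, ← h3, ← h4, on_curve hS, hx, ht, ne_eq, not_false_eq_true, true_and]
    have p1 : (0 : ℝ) < Hq (X S) := by exact_mod_cast Hq_pos _
    have p2 : (0 : ℝ) < Hq (X (S - R)) := by exact_mod_cast Hq_pos _
    have p3 : (0 : ℝ) < Hq (X (S + R)) := by exact_mod_cast Hq_pos _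
    have p4 : (0 : ℝ) < w := by exact_mod_cast hw
    rw [sub_lt_iff_lt_add, le_sub_iff_add_le, ← Real.log_mul p4.ne' p2.ne', ← Real.log_mul p4.ne' p1.ne',
      Real.log_lt_log_iff p1 (by positivity), Real.log_le_log_iff (by positivity) p3]
    norm_cast
  have hbij : ∀ w : ℕ, w2 ≤ w →
      Set.BijOn (fun S : G => (X S, Y S)) {S | Sel (Real.log w) S} {p | Sel' w p} := by
    intro w hw
    obtain ⟨hw0, hw3⟩ := hw2' w hw
    have hg : ∀ S, Sel (Real.log w) S → S ≠ 0 ∧ X S ≠ X R := by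
      intro S hS
      have := hlow _ S 1 hS (by push_cast; linarith [ht_nonneg R])
      push_cast at this
      constructor
      · rintro rfl; rw [ht_zero] at this; linarith [ht_nonneg R]
      · intro h
        have : ht S = ht R := by rw [ht, ht, h]
        linarith
    refine ⟨fun S hS => (hiff w hw0 S (hg S hS).1 (hg S hS).2).2 hS, fun S hS S' hS' h => ?_, ?_⟩
    · exact pt_ext (hg S hS).1 (hg S' hS').1 (congrArg Prod.fst h) (congrArg Prod.snd h)
    · rintro ⟨x, y⟩ hp
      obtain ⟨S, hS, rfl, rfl⟩ := pt_mk hp.1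
      exact ⟨S, (hiff w hw0 S hS hp.2.1).1 hp, rfl⟩
  let kq : ℚ → ℕ := fun q => Nat.pair (Nat.pair q.num.toNat (-q.num).toNat) q.den
  have hkq : Function.Injective kq := by
    intro q q' h
    simp only [kq, Nat.pair_eq_pair] at h
    exact Rat.ext (by omega) h.2
  obtain ⟨f, hf, hf'⟩ := exists_sel (fun p : ℚ × ℚ => Nat.pair (kq p.1) (kq p.2)) (by simp only [kq]; fun_prop)
    (fun p q h => by
      simp only [Nat.pair_eq_pair] at h
      exact Prod.ext (hkq h.1) (hkq h.2))
    (R := fun w p => Sel' (max w w2) p) (by simp only [Sel']; fun_prop)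
    (m := Nat.card (G ⧸ AddSubgroup.zmultiples R)) Nat.card_pos.ne'
    (fun w => by rw [← (hbij _ (le_max_right _ _)).ncard_eq, hcard])
  refine ⟨fun w => Hq (f w).1, K, max w1 w2, by fun_prop, fun w hw => ?_⟩
  have hw' : w2 ≤ w := (le_max_right _ _).trans hw
  have h3 := hf' w
  rw [max_eq_left hw'] at h3
  obtain ⟨S, hS, hS'⟩ := (hbij w hw').surjOn h3
  have h4 : Real.log (Hq (f w).1) = ht S := by rw [← hS']; rfl
  have p1 : (0 : ℝ) < Hq (f w).1 := by exact_mod_cast Hq_pos _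
  have p4 : (0 : ℝ) < w := by exact_mod_cast (hw2' w hw').1
  constructor
  · have h5 := (hup _ S (Real.log_natCast_nonneg w) hS).trans (hw1 w ((le_max_left _ _).trans hw))
    rw [← h4, ← Real.log_pow, Real.log_le_log_iff p1 (by positivity)] at h5
    exact_mod_cast h5
  · intro j hj
    have h5 : ((2 : ℝ) ^ (K * j)) ≤ w := by exact_mod_cast hj
    have h6 := Real.log_le_log (by positivity) h5
    rw [Real.log_pow] at h6
    push_cast at h6
    have h7 := hlow _ S j hS (by
      have := Real.log_two_gt_d9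
      have hj0 : (0 : ℝ) ≤ j := by positivity
      have : 6 * D * j * (1 / 2) ≤ K * j * Real.log 2 :=
        mul_le_mul (mul_le_mul_of_nonneg_right hK hj0) (by linarith) (by norm_num) (by positivity)
      linarith)
    rw [← h4, ← Real.log_pow, Real.log_le_log_iff (by positivity) p1] at h7
    exact_mod_cast h7

end Vale.Agent.P345
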