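import Vale.Agent.P345.Descent

namespace Vale.Agent.P345

theorem val_dbl {S : G} (hS : S ≠ 0) (hx : X S ≠ 0) (hv : padicValRat 2 (X S) ≤ 0) :
    S + S ≠ 0 ∧ X (S + S) ≠ 0 ∧ padicValRat 2 (X (S + S)) = padicValRat 2 (X S) - 2 := by
  have hc := on_curve hS
  have v2 : padicValRat 2 (2 : ℚ) = 1 := padicValRat.self (p := 2) (by norm_num)
  have hp : padicValRat 2 (X S ^ 2) = 2 * padicValRat 2 (X S) := by rw [padicValRat.pow]; rfl
  have h1 : X S ^ 2 + -2 ≠ 0 := by
    intro h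
    have : X S ^ 2 = 2 := by linarith
    rw [this, v2] at hp; omega
  have hy : Y S ≠ 0 := by
    intro h
    rw [h] at hc
    exact mul_ne_zero hx h1 (by linear_combination -hc)
  obtain ⟨h2, h3⟩ := X_dbl hS hy
  have h4 : X S ^ 2 + 2 ≠ 0 := by positivity
  have v3 : padicValRat 2 (X S ^ 2 + 2) = 2 * padicValRat 2 (X S) := by
    rw [padicValRat.add_eq_of_lt h4 (by positivity) (by norm_num) (by omega), hp]
  have v4 : padicValRat 2 (X S ^ 2 + -2) = 2 * padicValRat 2 (X S) := by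
    rw [padicValRat.add_eq_of_lt h1 (by positivity) (by norm_num) (by rw [padicValRat.neg]; omega), hp]
  refine ⟨h2, by rw [h3]; positivity, ?_⟩
  rw [h3, show 4 * Y S ^ 2 = 2 ^ 2 * (X S * (X S ^ 2 + -2)) by linear_combination 4 * hc,
    padicValRat.div (by positivity) (by positivity), padicValRat.mul (by positivity) (by positivity),
    padicValRat.mul hx h1, padicValRat.pow, padicValRat.pow, v2, v3, v4]
  push_cast; ring

theorem abs_fi {A : Type} [AddCommGroup A] {P T : A}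
    (h : ∀ Q : A, ∃ S : A, ∃ a b : ℤ, Q = a • P + b • T + (S + S)) :
    (nsmulAddMonoidHom (α := A) 2).range.FiniteIndex := by
  have : Finite (A ⧸ (nsmulAddMonoidHom (α := A) 2).range) := by
    refine Finite.of_surjective (fun p : Fin 2 × Fin 2 =>
      ((((p.1 : ℕ) : ℤ) • P + ((p.2 : ℕ) : ℤ) • T : A) : A ⧸ (nsmulAddMonoidHom (α := A) 2).range)) ?_
    intro q
    obtain ⟨Q, rfl⟩ := QuotientAddGroup.mk_surjective q
    obtain ⟨S, a, b, rfl⟩ := h Q
    refine ⟨(⟨(a % 2).toNat, by omega⟩, ⟨(b % 2).toNat, by omega⟩), ?_⟩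
    rw [QuotientAddGroup.eq]
    refine ⟨S + (a / 2) • P + (b / 2) • T, ?_⟩
    have e1 : (((a % 2).toNat : ℕ) : ℤ) = a - 2 * (a / 2) := by omega
    have e2 : (((b % 2).toNat : ℕ) : ℤ) = b - 2 * (b / 2) := by omega
    simp only [nsmulAddMonoidHom_apply, e1, e2]
    module
  exact AddSubgroup.finiteIndex_of_finite_quotient

theorem abs_fin {A : Type} [AddCommGroup A] (hfg : AddGroup.FG A) {P T : A} (hT : T + T = 0)
    (h : ∀ Q : A, ∃ S : A, ∃ a b : ℤ, Q = a • P + b • T + (S + S)) {k : ℕ} (hk : k ≠ 0) :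
    Finite (A ⧸ AddSubgroup.zmultiples (k • P)) := by
  have hmf : Module.Finite ℤ A := Module.Finite.iff_addGroup_fg.2 hfg
  obtain ⟨r, hr1, hr2⟩ := Submodule.exists_sub_one_mem_and_smul_eq_zero_of_fg_of_le_smul
    (Ideal.span {(2 : ℤ)}) (⊤ : Submodule ℤ (A ⧸ Submodule.span ℤ {P, T})) Module.Finite.fg_top (by
      intro q _
      obtain ⟨Q, rfl⟩ := Submodule.Quotient.mk_surjective _ q
      obtain ⟨S, a, b, rfl⟩ := h Q
      have : (Submodule.Quotient.mk (a • P + b • T + (S + S)) : A ⧸ Submodule.span ℤ {P, T}) =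
          (2 : ℤ) • Submodule.Quotient.mk S := by
        rw [← Submodule.Quotient.mk_smul, Submodule.Quotient.eq, Submodule.mem_span_pair]
        exact ⟨a, b, by module⟩
      rw [this]
      exact Submodule.smul_mem_smul (Ideal.mem_span_singleton_self _) trivial)
  have hr0 : r ≠ 0 := by
    rintro rfl
    rw [Ideal.mem_span_singleton] at hr1
    omega
  have hr3 : ∀ Q : A, ∃ a : ℤ, (2 * r) • Q = a • P := by
    intro Q
    have := hr2 (Submodule.Quotient.mk Q) trivial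
    rw [← Submodule.Quotient.mk_smul, Submodule.Quotient.mk_eq_zero, Submodule.mem_span_pair] at this
    obtain ⟨a, b, hab⟩ := this
    refine ⟨2 * a, ?_⟩
    rw [mul_smul, ← hab]
    have : (2 : ℤ) • b • T = 0 := by rw [smul_comm, two_smul, hT, smul_zero]
    rw [smul_add, this, add_zero, mul_smul]
  apply AddCommGroup.finite_of_fg_isAddTorsion
  intro q
  obtain ⟨Q, rfl⟩ := QuotientAddGroup.mk_surjective q
  obtain ⟨a, ha⟩ := hr3 Q
  rw [isOfFinAddOrder_iff_zsmul_eq_zero]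
  refine ⟨k * (2 * r), by positivity, ?_⟩
  rw [← QuotientAddGroup.mk_zsmul, QuotientAddGroup.eq_zero_iff, AddSubgroup.mem_zmultiples_iff]
  refine ⟨a, ?_⟩
  rw [mul_smul, ha, smul_comm, natCast_zsmul]

theorem exists_R (B : ℝ) : ∃ R : G, R ≠ 0 ∧ B ≤ ht R ∧ Finite (G ⧸ AddSubgroup.zmultiples R) := by
  obtain ⟨P, T, hP, hPx, hPy, hT, h⟩ := exists_PT
  obtain ⟨C, hC⟩ := parallelogram
  have hfg : AddGroup.FG G := AddCommGroup.fg_of_descent' (abs_fi h) ht_nonneg hC
  have hv : ∀ j : ℕ, (2 ^ j : ℕ) • P ≠ 0 ∧ X ((2 ^ j : ℕ) • P) ≠ 0 ∧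
      padicValRat 2 (X ((2 ^ j : ℕ) • P)) = -2 * j := by
    intro j
    induction j with
    | zero => simp [hP, hPx]
    | succ j ih =>
      obtain ⟨h1, h2, h3⟩ := val_dbl ih.1 ih.2.1 (by rw [ih.2.2]; omega)
      rw [pow_succ, mul_nsmul, two_nsmul]
      refine ⟨h1, h2, ?_⟩
      rw [h3, ih.2.2]; push_cast; ring
  have hinj : Function.Injective fun j : ℕ => (2 ^ j : ℕ) • P := by
    intro i j hij
    have h1 := (hv i).2.2
    simp only at hij
    rw [hij, (hv j).2.2] at h1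
    omega
  obtain ⟨_, ⟨j, rfl⟩, hj⟩ := (Set.infinite_range_of_injective hinj).exists_notMem_finite (finite_ht B)
  exact ⟨_, (hv j).1, le_of_lt (not_le.1 hj), abs_fin hfg hT h (by positivity)⟩

end Vale.Agent.P345
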