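import Vale.Agent.P345.Cube

namespace Vale.Agent.P345
open Finset

theorem mem_rec (o : Part ℕ) (g : ℕ → ℕ → Part ℕ) (n z : ℕ) :
    z ∈ (Nat.rec o (fun y IH => IH >>= fun i => g y i) n : Part ℕ) ↔
      ∃ s : ℕ → ℕ, s 0 ∈ o ∧ (∀ i < n, s (i + 1) ∈ g i (s i)) ∧ s n = z := by
  induction n generalizing z with
  | zero => exact ⟨fun h => ⟨fun _ => z, h, by simp, rfl⟩, fun ⟨s, h, _, e⟩ => e ▸ h⟩
  | succ n ih =>
    simp only [Part.bind_eq_bind, Part.mem_bind_iff]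
    constructor
    · rintro ⟨y, hy, hz⟩
      obtain ⟨s, h1, h2, rfl⟩ := (ih y).1 hy
      refine ⟨fun i => if i = n + 1 then z else s i, by simpa using h1, fun i hi => ?_, by simp⟩
      by_cases e : i = n
      · simpa [e] using hz
      · simpa [e, show i ≠ n + 1 by omega] using h2 i (by omega)
    · rintro ⟨s, h1, h2, rfl⟩
      exact ⟨s n, (ih _).2 ⟨s, h1, fun i hi => h2 i (by omega), rfl⟩, h2 n (by omega)⟩

theorem partrec_sf {f : ℕ →. ℕ} (hf : Nat.Partrec f) : SF fun p : ℕ × ℕ => p.2 ∈ f p.1 := by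
  induction hf with
  | zero => exact SF.congr (R := fun p : ℕ × ℕ => p.2 = 0) (by fun_prop) fun p => Part.mem_some_iff.symm
  | succ => exact SF.congr (R := fun p : ℕ × ℕ => p.2 = p.1 + 1) (by fun_prop) fun p => by simp
  | left => exact SF.congr (R := fun p : ℕ × ℕ => p.2 = p.1.unpair.1) (by fun_prop) fun p => by simp
  | right => exact SF.congr (R := fun p : ℕ × ℕ => p.2 = p.1.unpair.2) (by fun_prop) fun p => by simp
  | @pair f g _ _ ihf ihg =>
    refine SF.congr (R := fun p : ℕ × ℕ => p.2.unpair.1 ∈ f p.1 ∧ p.2.unpair.2 ∈ g p.1)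
      ((ihf.comp (f := fun p : ℕ × ℕ => (p.1, p.2.unpair.1)) (by fun_prop)).and
        (ihg.comp (f := fun p : ℕ × ℕ => (p.1, p.2.unpair.2)) (by fun_prop))) fun p => ?_
    simp only [Seq.seq, Part.map_eq_map, Part.mem_bind_iff, Part.mem_map_iff]
    constructor
    · rintro ⟨h1, h2⟩
      exact ⟨_, ⟨_, h1, rfl⟩, _, h2, Nat.pair_unpair _⟩
    · rintro ⟨_, ⟨a, h1, rfl⟩, b, h2, e⟩
      rw [← e, Nat.unpair_pair]; exact ⟨h1, h2⟩
  | @comp f g _ _ ihf ihg =>
    refine SF.congr (SF.ex (R := fun (p : ℕ × ℕ) y => y ∈ g p.1 ∧ p.2 ∈ f y)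
      ((ihg.comp (f := fun p : (ℕ × ℕ) × ℕ => (p.1.1, p.2)) (by fun_prop)).and
        (ihf.comp (f := fun p : (ℕ × ℕ) × ℕ => (p.2, p.1.2)) (by fun_prop)))
      fun _ _ _ h h' => Part.mem_unique h.1 h'.1) fun p => Part.mem_bind_iff.symm
  | @rfind f _ ih =>
    have h1 : SF fun q : (ℕ × ℕ) × ℕ => ∃ k, k ≠ 0 ∧ k ∈ f (Nat.pair q.1.1 q.2) :=
      SF.ex (SF.and (by fun_prop) (ih.comp (f := fun r : ((ℕ × ℕ) × ℕ) × ℕ => (Nat.pair r.1.1.1 r.1.2, r.2))
        (by fun_prop))) fun _ _ _ h h' => Part.mem_unique h.2 h'.2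
    refine SF.congr ((ih.comp (f := fun p : ℕ × ℕ => (Nat.pair p.1 p.2, 0)) (by fun_prop)).and
      (SF.ball (R := fun (p : ℕ × ℕ) m => ∃ k, k ≠ 0 ∧ k ∈ f (Nat.pair p.1 m)) h1 Fn.snd')) fun p => ?_
    refine Iff.trans ?_ Nat.mem_rfind.symm
    simp only [Part.map_eq_map, Part.mem_map_iff, decide_eq_true_eq, exists_eq_right,
      decide_eq_false_iff_not]
    exact and_congr Iff.rfl ⟨fun h m hm => (h m hm).imp fun _ h => ⟨h.2, h.1⟩,
      fun h m hm => (h hm).imp fun _ h => ⟨h.2, h.1⟩⟩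
  | @prec f g _ _ ihf ihg =>
    let T : ℕ × ℕ → ℕ × ℕ × ℕ → Prop := fun p w =>
      (w.2.1 / w.1 ^ 0 % w.1 ∈ f p.1.unpair.1 ∧ (∀ i < p.1.unpair.2, w.2.1 / w.1 ^ (i + 1) % w.1 ∈
        g (Nat.pair p.1.unpair.1 (Nat.pair i (w.2.1 / w.1 ^ i % w.1)))) ∧
        w.2.1 / w.1 ^ p.1.unpair.2 % w.1 = p.2) ∧ w.2.1 < w.1 ^ (p.1.unpair.2 + 1) ∧
        w.2.2 ≤ p.1.unpair.2 ∧ w.2.1 / w.1 ^ w.2.2 % w.1 + 1 = w.1 ∧
        ∀ j < w.2.2, w.2.1 / w.1 ^ j % w.1 + 1 ≠ w.1
    have hT : SF fun q : (ℕ × ℕ) × ℕ × ℕ × ℕ => T q.1 q.2 := by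
      refine SF.and (SF.and ?_ (SF.and (SF.ball ?_ (by fun_prop)) (by fun_prop))) (SF.and (by fun_prop)
        (SF.and (by fun_prop) (SF.and (by fun_prop) (SF.ball (by fun_prop) (by fun_prop)))))
      · exact ihf.comp (f := fun q : (ℕ × ℕ) × ℕ × ℕ × ℕ =>
          (q.1.1.unpair.1, q.2.2.1 / q.2.1 ^ 0 % q.2.1)) (by fun_prop)
      · exact ihg.comp (f := fun q : ((ℕ × ℕ) × ℕ × ℕ × ℕ) × ℕ =>
          (Nat.pair q.1.1.1.unpair.1 (Nat.pair q.2 (q.1.2.2.1 / q.1.2.1 ^ q.2 % q.1.2.1)),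
            q.1.2.2.1 / q.1.2.1 ^ (q.2 + 1) % q.1.2.1)) (by fun_prop)
    refine SF.congr (SF.ex hT ?_) fun p => ?_
    · rintro p ⟨b, c, k⟩ ⟨b', c', k'⟩ ⟨⟨h1, h2, -⟩, h3, h4, h5, h6⟩ ⟨⟨h1', h2', -⟩, h3', h4', h5', h6'⟩
      simp only at h1 h2 h3 h4 h5 h6 h1' h2' h3' h4' h5' h6'
      have e : ∀ i ≤ p.1.unpair.2, c / b ^ i % b = c' / b' ^ i % b' := by
        intro i
        induction i with
        | zero => exact fun _ => Part.mem_unique h1 h1'
        | succ i ih => exact fun hi => Part.mem_unique (h2 i hi) (ih (by omega) ▸ h2' i hi)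
      have e1 := e k h4
      have e2 := e k' h4'
      have l1 := Nat.mod_lt (c' / b' ^ k) (show 0 < b' by omega)
      have l2 := Nat.mod_lt (c / b ^ k') (show 0 < b by omega)
      obtain rfl : b = b' := by omega
      obtain rfl : c = c' := digit_ext b _ h3 h3' fun i hi => e i (by omega)
      obtain rfl : k = k' := by
        rcases lt_trichotomy k k' with h | h | h
        · exact (h6' k h h5).elim
        · exact h
        · exact (h6 k' h h5').elim
      rfl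
    · rw [Nat.unpaired, mem_rec (f p.1.unpair.1) fun y i => g (Nat.pair p.1.unpair.1 (Nat.pair y i))]
      constructor
      · rintro ⟨w, h, -⟩
        exact ⟨fun i => w.2.1 / w.1 ^ i % w.1, h⟩
      · rintro ⟨s, h1, h2, h3⟩
        obtain ⟨k0, hk0, hk⟩ := exists_max_image (range (p.1.unpair.2 + 1)) s ⟨0, by simp⟩
        obtain ⟨d1, d2⟩ := digit_sum (s k0 + 1) (p.1.unpair.2 + 1) s fun i hi =>
          Nat.lt_succ_of_le (hk i (mem_range.2 hi))
        generalize ∑ i ∈ range (p.1.unpair.2 + 1), s i * (s k0 + 1) ^ i = c at d1 d2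
        have hex : ∃ k, s k = s k0 := ⟨k0, rfl⟩
        have hle : Nat.find hex ≤ p.1.unpair.2 :=
          (Nat.find_min' hex rfl).trans (Nat.lt_succ_iff.1 (mem_range.1 hk0))
        refine ⟨(s k0 + 1, c, Nat.find hex), ⟨?_, fun i hi => ?_, ?_⟩, d1, hle, ?_, fun j hj => ?_⟩
        · simp only; rwa [d2 0 (by omega)]
        · simp only; rw [d2 i (by omega), d2 (i + 1) (by omega)]; exact h2 i hi
        · simp only; rwa [d2 _ (by omega)]
        · simp only; rw [d2 _ (by omega), Nat.find_spec hex]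
        · simp only at hj ⊢
          rw [d2 j (by omega)]
          exact fun h => Nat.find_min hex hj (by omega)

theorem encode_fn (n : ℕ) : Fn fun a : Fin n → ℕ => Encodable.encode (List.ofFn a) := by
  induction n with
  | zero => simpa using Fn.const 0
  | succ n ih =>
    simp only [List.ofFn_succ, Encodable.encode_list_cons, Encodable.encode_nat, Nat.succ_eq_add_one]
    exact ((Fn.apply 0).pair (ih.comp (g := fun a : Fin (n + 1) → ℕ => fun i : Fin n => a i.succ)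
      (by fun_prop))).add (Fn.const 1)

theorem re_sf {n : ℕ} {p : (Fin n → ℕ) → Prop} (hp : REPred p) : SF0 p := by
  have h1 : SF p := by
    refine ((partrec_sf hp).comp (f := fun a : Fin n → ℕ => (Encodable.encode (List.ofFn a), 0))
      ((encode_fn n).prodMk (Fn.const 0))).congr fun a => ?_
    have e : Encodable.encode (List.ofFn a) = @Encodable.encode _ (Primcodable.finArrow).toEncodable a := by
      rw [← List.Vector.toList_ofFn]; rfl
    simp only [e, Encodable.encodek]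
    simp
    exact fun _ => ⟨(), rfl⟩
  exact (SF0.comap h1 Prod.fst).congr fun a => SF.iff0 a

end Vale.Agent.P345
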